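import Mathlib.Algebra.MvPolynomial.PDeriv
import Mathlib.Algebra.MvPolynomial.Degrees
import Vale.Agent.P139.H836.Main

/-!
# P139: Birkhoff normal form of every order — common definitions (team P139-N)

Signed modes are elements `v : ι × Bool` (`(n, true)` is `z_n`, `(n, false)` is its conjugate);
polynomials in `z_n, \bar z_n` are `MvPolynomial (ι × Bool) ℂ`.
-/

set_option autoImplicit false

open MvPolynomial Finset
open scoped ComplexConjugate ENNReal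

namespace Vale.Agent.P139.BN

open Vale.Agent.P139.A Vale.Agent.P139.A.WA

/-- Polynomials in the signed modes. -/
abbrev Pl (ι : Type) := MvPolynomial (ι × Bool) ℂ

variable {ι : Type} {d : ℕ}

/-- The conjugate signed mode. -/
def dual (v : ι × Bool) : ι × Bool := (v.1, !v.2)

/-- Momentum of a signed mode. -/
def sm (mo : ι → Lat d) (v : ι × Bool) : Lat d := if v.2 then mo v.1 else -mo v.1

/-- Momentum of a tuple. -/
def mom (mo : ι → Lat d) {j : ℕ} (I : Fin j → ι × Bool) : Lat d := ∑ l, sm mo (I l)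

/-- The monomial of a tuple. -/
noncomputable def mon {j : ℕ} (I : Fin j → ι × Bool) : Pl ι := ∏ l, X (I l)

/-- The divisor `∑ ± a (I l)` of a tuple. -/
def dv (a : ι → ℝ) {j : ℕ} (I : Fin j → ι × Bool) : ℝ :=
  ∑ l, if (I l).2 then a (I l).1 else -a (I l).1

/-- The diagonal quadratic polynomial `∑ a_n z_n \bar z_n`. -/
noncomputable def quad [Fintype ι] (a : ι → ℝ) : Pl ι :=
  ∑ n, C (a n : ℂ) * (X (n, true) * X (n, false))

/-- The bracket `∑_n (∂_{z_n} P ∂_{\bar z_n} Q - ∂_{\bar z_n} P ∂_{z_n} Q)`. -/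
noncomputable def br [Fintype ι] (P Q : Pl ι) : Pl ι :=
  ∑ n : ι, (pderiv (n, true) P * pderiv (n, false) Q - pderiv (n, false) P * pderiv (n, true) Q)

/-- A weight on tuples. -/
abbrev WS (ι : Type) := ∀ j : ℕ, (Fin j → ι × Bool) → ℝ

/-- `P` is homogeneous of degree `j`, conserves the momentum and has a tensor bounded by
`F * D`. -/
def Cls [Fintype ι] (mo : ι → Lat d) (D : WS ι) (j : ℕ) (F : ℝ) (P : Pl ι) : Prop :=
  ∃ a : (Fin j → ι × Bool) → ℂ, (∀ I, ‖a I‖ ≤ F * D j I) ∧ (∀ I, mom mo I ≠ 0 → a I = 0) ∧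
    P = ∑ I, C (a I) * mon I

/-- The trivial weight. -/
def D0 : WS ι := fun _ _ => 1

/-- `∏ W (I l) * ∑_{l ≠ l'} pw (I l) pw (I l')`. -/
noncomputable def DW (W pw : ι → ℝ) : WS ι := fun j I =>
  (∏ l : Fin j, W (I l).1) *
    ∑ l : Fin j, ∑ l' ∈ univ.erase l, pw (I l).1 * pw (I l').1

/-- The tuple is resonant: at each level as many plus signs as minus signs. -/
def Reso (lev : ι → ℕ) {j : ℕ} (I : Fin j → ι × Bool) : Prop :=
  ∀ μ : ℕ, (univ.filter fun l => (I l).2 = true ∧ lev (I l).1 = μ).card =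
    (univ.filter fun l => (I l).2 = false ∧ lev (I l).1 = μ).card

/-- The number of high modes of a tuple. -/
noncomputable def nhi (lev : ι → ℕ) (R : ℕ) {j : ℕ} (I : Fin j → ι × Bool) : ℕ :=
  (univ.filter fun l => R ≤ lev (I l).1).card

/-- The data of the normal form: modes `ι` with momenta `mo`, levels `lev = |n|²`, frequencies `fr`,
weights `W` (large, capped, submultiplicative) and `pw` (polynomial).
`J` = maximal degree, `κ` = constant of `pw`, `γ` = nonresonance, `R` = threshold of high levels,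
`θ` = inverse of the cap of `W`, `S` = summability constant of `pw`. -/
structure Modes (ι : Type) [Fintype ι] (d : ℕ) (J : ℕ) (κ γ : ℝ) (R : ℕ) (θ S : ℝ)
    (mo : ι → Lat d) (lev : ι → ℕ) (fr W pw : ι → ℝ) : Prop where
  inj : Function.Injective mo
  mo_ne : ∀ n, mo n ≠ 0
  one_le_W : ∀ n, 1 ≤ W n
  one_le_pw : ∀ n, 1 ≤ pw n
  θ_pos : 0 < θ
  /-- the cap -/
  W_le : ∀ n, W n ≤ θ⁻¹
  W_high : ∀ n, R ≤ lev n → W n = θ⁻¹
  /-- `W` and `pw` depend on the level only -/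
  W_lev : ∀ n n', lev n = lev n' → W n = W n'
  pw_lev : ∀ n n', lev n = lev n' → pw n = pw n'
  fr_lev : ∀ n n', lev n = lev n' → fr n = fr n'
  /-- submultiplicativity along the momentum -/
  W_mom : ∀ (j : ℕ) (I : Fin (j + 1) → ι × Bool) (l : Fin (j + 1)), mom mo I = 0 →
    W (I l).1 ≤ ∏ i : Fin j, W (I (l.succAbove i)).1
  /-- the largest polynomial weight is comparable with the second largest -/
  pw_mom : ∀ (j : ℕ), j + 1 ≤ J → ∀ (I : Fin (j + 1) → ι × Bool) (l : Fin (j + 1)), mom mo I = 0 →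
    ∃ i : Fin j, pw (I l).1 ≤ κ * pw (I (l.succAbove i)).1
  /-- nonresonance -/
  nonres : ∀ j, 3 ≤ j → j ≤ J → ∀ I : Fin j → ι × Bool, mom mo I = 0 → nhi lev R I ≤ 2 →
    ¬ Reso lev I → γ ≤ |dv fr I|
  summ : ∑ n, (pw n ^ 2)⁻¹ ≤ S ^ 2

/-- Convolution bracket of two sequences of polynomials. -/
noncomputable def sbr [Fintype ι] (F G : ℕ → Pl ι) (r : ℕ) : Pl ι :=
  ∑ p ∈ antidiagonal r, br (F p.1) (G p.2)

/-- The weighted `ℓ²` norm of a family indexed by signed modes, weight `w`. -/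
noncomputable def nw [Fintype ι] (w : ι → ℝ) (y : ι × Bool → ℂ) : ℝ :=
  Real.sqrt (∑ v : ι × Bool, (w v.1 * ‖y v‖) ^ 2)

/-- Evaluation point: `z` at `(n, true)`, `\bar z` at `(n, false)`. -/
noncomputable def pt (z : ι → ℂ) (v : ι × Bool) : ℂ := if v.2 then z v.1 else conj (z v.1)

/-- The explicit constant `(2 J A κ S / γ) ^ (a (J + 1) ^ 2)`. -/
noncomputable def Cst (a J : ℕ) (A κ S γ : ℝ) : ℝ := (2 * J * A * κ * S / γ) ^ (a * (J + 1) ^ 2)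

/-! ## Statements of the rows -/

/-- **Row R4.** Normal form theorem. `H 0 = quad fr`, `H r` of degree `r + 2` with tensor bounded by
`A`; `E 0 = quad ((W pw)²)`. -/
def NFThm (d : ℕ) : Prop :=
  ∃ a : ℕ, ∀ (N : ℕ) (J : ℕ), N + 2 ≤ J → ∀ (A κ γ : ℝ), 1 ≤ A → 1 ≤ κ → 0 < γ → γ ≤ 1 →
    ∀ (ι : Type) [Fintype ι] [DecidableEq ι] (R : ℕ) (θ S : ℝ) (mo : ι → Lat d) (lev : ι → ℕ)
      (fr W pw : ι → ℝ), Modes ι d J κ γ R θ S mo lev fr W pw →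
    ∀ H : ℕ → Pl ι, H 0 = quad fr → (∀ r, 1 ≤ r → Cls mo D0 (r + 2) A (H r)) →
    ∃ E : ℕ → Pl ι, E 0 = quad (fun n => (W n * pw n) ^ 2) ∧
      (∀ r, 1 ≤ r → r ≤ N → Cls mo (DW W pw) (r + 2) (Cst a J A κ 1 γ) (E r)) ∧
      (∀ r, r ≤ N → Cls mo (DW W pw) (r + 2) (Cst a J A κ 1 γ * θ) (sbr E H r))

/-- **Row R5.** Evaluation bounds: value and directional derivative. -/
def EvThm (d : ℕ) : Prop :=
  ∀ (j : ℕ) (S : ℝ), 2 ≤ j → 1 ≤ S →
    ∀ (ι : Type) [Fintype ι] [DecidableEq ι] (mo : ι → Lat d) (W pw : ι → ℝ),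
      Function.Injective mo → (∀ n, 1 ≤ W n) → (∀ n, 1 ≤ pw n) → ∑ n, (pw n ^ 2)⁻¹ ≤ S ^ 2 →
    ∀ (F : ℝ) (P : Pl ι), 0 ≤ F → Cls mo (DW W pw) j F P →
    (∀ y : ι × Bool → ℂ, ‖eval y P‖ ≤ (4 * j * S) ^ j * F * nw (fun n => W n * pw n) y ^ j) ∧
    (∀ y r : ι × Bool → ℂ, ‖∑ v, eval y (pderiv v P) * r v‖ ≤
      (4 * j * S) ^ (j + 1) * F * nw (fun n => W n * pw n) y ^ (j - 1) * nw (fun n => W n * pw n) r)

/-- **Row R6.** Energy estimate: a curve solving the Hamiltonian system up to a small remainder stays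
small up to the time `C⁻¹ η ^ (-N)`. -/
def DynThm (d : ℕ) : Prop :=
  ∃ a : ℕ, ∀ (N J L : ℕ), N + L + 4 ≤ J → ∀ (A κ γ S : ℝ), 1 ≤ A → 1 ≤ κ → 0 < γ → γ ≤ 1 → 1 ≤ S →
    ∀ (ι : Type) [Fintype ι] [DecidableEq ι] (R : ℕ) (θ : ℝ) (mo : ι → Lat d) (lev : ι → ℕ)
      (fr W pw : ι → ℝ), Modes ι d J κ γ R θ S mo lev fr W pw →
    ∀ H : ℕ → Pl ι, H 0 = quad fr → (∀ r, 1 ≤ r → Cls mo D0 (r + 2) A (H r)) →
      (∀ r, L < r → H r = 0) →
      (∀ (z : ι → ℂ) (n : ι), conj (eval (pt z) (pderiv (n, false) (∑ r ∈ range (L + 1), H r))) =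
        eval (pt z) (pderiv (n, true) (∑ r ∈ range (L + 1), H r))) →
    ∀ (η T : ℝ), 0 < η → 0 ≤ T → Cst a J A κ S γ * η ≤ 1 → θ ≤ η ^ N →
      T * (Cst a J A κ S γ * η ^ N) ≤ 1 →
    ∀ (z ρ : ℝ → ι → ℂ),
      (∀ t ∈ Set.Icc 0 T, ∀ n, HasDerivWithinAt (fun t => z t n)
        (-Complex.I * eval (pt (z t)) (pderiv (n, false) (∑ r ∈ range (L + 1), H r)) + ρ t n)
        (Set.Icc 0 T) t) →
      (∀ t ∈ Set.Icc 0 T, nw (fun n => W n * pw n) (pt (z t)) ≤ 1 →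
        nw (fun n => W n * pw n) (pt (ρ t)) ≤ A * nw (fun n => W n * pw n) (pt (z t)) ^ (N + 2)) →
      nw (fun n => W n * pw n) (pt (z 0)) ≤ η →
      ∀ t ∈ Set.Icc 0 T, nw (fun n => W n * pw n) (pt (z t)) ≤ 2 * η

/-- **Row R1.** Quantitative nonresonance for almost every `z`: for all large `N` the divisors with
at most `10 N` frequencies and at most two levels `≥ 4 ^ (N + 8)` are at least `2 ^ (-N ^ 6)`,
locally uniformly in the frequency parameter `μ`. -/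
def NRThm : Prop :=
  ∀ m : ℕ, 1 ≤ m → ∀ᵐ z ∂stdComplexGaussian, z ≠ 0 ∧ ∃ N₀ : ℕ, ∀ N : ℕ, N₀ ≤ N →
    ∀ μ : ℝ, |μ - m * ‖z‖ ^ (2 * m)| ≤ ((2 : ℝ) ^ (N ^ 6 + N))⁻¹ →
    ∀ j ≤ 10 * N, ∀ (s : Fin j → Bool) (lv : Fin j → ℕ),
      (∀ l, 1 ≤ lv l) → (univ.filter fun l => 4 ^ (N + 8) ≤ lv l).card ≤ 2 →
      ¬ (∀ ν : ℕ, (univ.filter fun l => s l = true ∧ lv l = ν).card =
        (univ.filter fun l => s l = false ∧ lv l = ν).card) →
      ((2 : ℝ) ^ (N ^ 6))⁻¹ ≤ |∑ l, if s l then H212.om μ (lv l) else -H212.om μ (lv l)|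

/-- Solution on `[0, T]` of the Galerkin system (modes `B`) for the nonzero modes; the zero mode is
`bz c e w = sqrt (c ^ 2 + e - mass w)`. -/
structure GSol (d k m : ℕ) (c e : ℝ) (B : Finset (Lat d)) (T : ℝ) (w : ℝ → WA d k) : Prop where
  supp : ∀ t ∈ Set.Icc 0 T, ∀ n, n ∉ B → coef (w t) n = 0
  cont : ContinuousOn w (Set.Icc 0 T)
  small : ∀ t ∈ Set.Icc 0 T, ‖w t‖ ≤ c / 2
  eqn : ∀ t ∈ Set.Icc 0 T, ∀ n ∈ B, HasDerivWithinAt (fun t => coef (w t) n)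
    (-Complex.I * (sqNorm n * coef (w t) n) +
      coef (Nl m (cst (H836.bz c e (w t)) + w t)) n) (Set.Icc 0 T) t

/-- The weighted `ℓ²` norm of a family of coefficients on `B`. -/
noncomputable def nL (B : Finset (Lat d)) (w : Lat d → ℝ) (a : Lat d → ℂ) : ℝ :=
  Real.sqrt (∑ n ∈ B, (w n * ‖a n‖) ^ 2)

/-- **Rows R7 + R8.** Hamiltonian structure of the Galerkin system, uniformly in `B` and `W`;
here `L = 2 N + 2 m + 2` and `A = A₀ ^ (N + 1)`. -/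
def HamThm (d : ℕ) : Prop :=
  ∀ (m q : ℕ) (ρ₀ : ℝ), 1 ≤ m → d ≤ q → 1 ≤ q → 0 < ρ₀ →
    ∃ (A₀ δ : ℝ), 1 ≤ A₀ ∧ 0 < δ ∧
    ∀ (N L : ℕ) (A : ℝ), L = 2 * N + 2 * m + 2 → A = A₀ ^ (N + 1) →
    ∀ (k : ℕ) (c e : ℝ), 0 < c → 0 ≤ e → |Real.sqrt (c ^ 2 + e) - ρ₀| ≤ δ →
    ∀ (B : Finset (Lat d)), (∀ n ∈ B, -n ∈ B) → (0 : Lat d) ∉ B →
    ∀ (W pw : Lat d → ℝ), (∀ n, 1 ≤ W n) → (∀ n, W (-n) = W n) → (∀ a b, W (a + b) ≤ W a * W b) →
      (∀ n, pw n = (1 + sqNorm n) ^ q) →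
    ∃ H : ℕ → Pl {n // n ∈ B}, H 0 = quad (fun n => Om (m * (c ^ 2 + e) ^ m) n.1) ∧
      (∀ r, 1 ≤ r → Cls (fun n : {n // n ∈ B} => n.1) D0 (r + 2) A (H r)) ∧
      (∀ r, L < r → H r = 0) ∧
      (∀ (z : {n // n ∈ B} → ℂ) (n : {n // n ∈ B}),
        conj (eval (pt z) (pderiv (n, false) (∑ r ∈ range (L + 1), H r))) =
          eval (pt z) (pderiv (n, true) (∑ r ∈ range (L + 1), H r))) ∧
      ∀ (T : ℝ) (w : ℝ → WA d k), GSol d k m c e B T w →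
      ∃ z ρ : ℝ → {n // n ∈ B} → ℂ,
        (∀ t ∈ Set.Icc 0 T, ∀ n, HasDerivWithinAt (fun t => z t n)
          (-Complex.I * eval (pt (z t)) (pderiv (n, false) (∑ r ∈ range (L + 1), H r)) + ρ t n)
          (Set.Icc 0 T) t) ∧
        (∀ t ∈ Set.Icc 0 T, nw (fun n => W n.1 * pw n.1) (pt (z t)) ≤ 1 →
          nw (fun n => W n.1 * pw n.1) (pt (ρ t)) ≤
            A * nw (fun n => W n.1 * pw n.1) (pt (z t)) ^ (N + 2)) ∧
        (∀ t ∈ Set.Icc 0 T,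
          nw (fun n => W n.1 * pw n.1) (pt (z t)) ≤ A * nL B (fun n => W n * pw n) (coef (w t)) ∧
          nL B (fun n => W n * pw n) (coef (w t)) ≤ A * nw (fun n => W n.1 * pw n.1) (pt (z t)))

/-- The nonzero modes in a box. -/
noncomputable def box (d L : ℕ) : Finset (Lat d) := (Fintype.piFinset fun _ => Finset.Icc (-(L : ℤ)) L).erase 0

/-- **Row R9.** From a-priori bounds for the Galerkin systems to a solution. -/
def LimThm (d k m : ℕ) : Prop :=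
  ∀ ρ₀ : ℝ, 0 < ρ₀ → ∃ (r δ : ℝ), 0 < r ∧ 0 < δ ∧
    ∀ c : ℝ, |c - ρ₀| ≤ δ → ∀ w₀ : WA d k, coef w₀ 0 = 0 → ‖w₀‖ ≤ r / 2 → ∀ T C : ℝ, 0 ≤ T →
    (∀ L : ℕ, ∀ T' ∈ Set.Icc 0 T, ∀ w : ℝ → WA d k, GSol d k m c (H836.mass w₀) (box d L) T' w →
      (∀ n ∈ box d L, coef (w 0) n = coef w₀ n) → (∀ t ∈ Set.Icc 0 T', ‖w t‖ ≤ r) →
      ∀ t ∈ Set.Icc 0 T', ‖w t‖ ≤ r / 2 ∧ ∑ n ∈ box d L, A.W (k + 1) n * ‖coef (w t) n‖ ≤ C) →
    ∃ u : ℝ → WA d k, u 0 = cst c + w₀ ∧ IsSolution d (2 * m + 1) k T (fun t => coef (u t))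

/-- **Row R10.** The final theorem from the rows: almost surely the lifespan is at least
`exp (α ^ (11 / 10))` for all large real `α`. -/
def FinalThm (d : ℕ) : Prop :=
  ∀ (m k : ℕ), 1 ≤ m → ∀ (Ω : Type) [MeasurableSpace Ω] (P : MeasureTheory.Measure Ω)
    [MeasureTheory.IsProbabilityMeasure P] (g : Lat d → Ω → ℂ), (∀ n, Measurable (g n)) →
    (∀ n, P.map (g n) = stdComplexGaussian) →
    ∀ᵐ ω ∂P, ∃ α₁ : ℝ, ∀ α ≥ α₁,
      ENNReal.ofReal (Real.exp (α ^ (11 / 10 : ℝ))) ≤ lifespan d (2 * m + 1) k (datum g α ω)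

end Vale.Agent.P139.BN
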