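import Vale.Agent.P139.R2.H556.Defs

/-!
# P139: stage 2 — the probability of a short lifespan (team P139-N)
-/

set_option autoImplicit false

open MvPolynomial Finset
open scoped ComplexConjugate ENNReal

namespace Vale.Agent.P139.BN

open Vale.Agent.P139.A Vale.Agent.P139.A.WA

/-- Nonresonance of order `N` at `μ₀` (the conclusion of `NRThm`). -/
def NonRes (N : ℕ) (μ₀ : ℝ) : Prop :=
  ∀ μ : ℝ, |μ - μ₀| ≤ ((2 : ℝ) ^ (N ^ 6 + N))⁻¹ →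
    ∀ j ≤ 10 * N, ∀ (s : Fin j → Bool) (lv : Fin j → ℕ),
      (∀ l, 1 ≤ lv l) → (univ.filter fun l => 4 ^ (N + 8) ≤ lv l).card ≤ 2 →
      ¬ (∀ ν : ℕ, (univ.filter fun l => s l = true ∧ lv l = ν).card =
        (univ.filter fun l => s l = false ∧ lv l = ν).card) →
      ((2 : ℝ) ^ (N ^ 6))⁻¹ ≤ |∑ l, if s l then H212.om μ (lv l) else -H212.om μ (lv l)|

/-- **Stage 2, R1.** The exceptional set has probability at most `2 ^ (-N)`, `N ≥ N₀(m)`. -/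
def NRTail : Prop :=
  ∀ m : ℕ, 1 ≤ m → ∃ N₀ : ℕ, ∀ N : ℕ, N₀ ≤ N →
    stdComplexGaussian {z : ℂ | ¬ (((2 : ℝ) ^ N)⁻¹ ≤ ‖z‖ ∧ ‖z‖ ≤ (2 : ℝ) ^ N ∧
      NonRes N (m * ‖z‖ ^ (2 * m)))} ≤ ENNReal.ofReal ((2 : ℝ) ^ N)⁻¹

variable {d : ℕ}

/-- **Stage 2, R7 + R8.** As `HamThm`, with `A = (A₁ (ρ + ρ⁻¹)) ^ (a (N + 1))`,
`ρ = sqrt (c ^ 2 + e)`; `a`, `A₁` depend on `d, m, q` only. -/
def HamQ (d : ℕ) : Prop :=
  ∀ (m q : ℕ), 1 ≤ m → d ≤ q → 1 ≤ q → ∃ (a : ℕ) (A₁ : ℝ), 1 ≤ A₁ ∧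
    ∀ (N L : ℕ) (A : ℝ), L = 2 * N + 2 * m + 2 →
    ∀ (k : ℕ) (c e : ℝ), 0 < c → 0 ≤ e →
    A = (A₁ * (Real.sqrt (c ^ 2 + e) + (Real.sqrt (c ^ 2 + e))⁻¹)) ^ (a * (N + 1)) →
    ∀ (B : Finset (Lat d)), (∀ n ∈ B, -n ∈ B) → (0 : Lat d) ∉ B →
    ∀ (W pw : Lat d → ℝ), (∀ n, 1 ≤ W n) → (∀ n, W (-n) = W n) → (∀ a b, W (a + b) ≤ W a * W b) →
      (∀ n, pw n = (1 + sqNorm n) ^ q) →
    ∃ H : ℕ → Pl {n // n ∈ B}, H 0 = quad (fun n => Om (m * (c ^ 2 + e) ^ m) n.1) ∧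
      (∀ r, 1 ≤ r → Cls (fun n : {n // n ∈ B} => n.1) D0 (r + 2) A (H r)) ∧
      (∀ r, L < r → H r = 0) ∧
      (∀ (z : {n // n ∈ B} → ℂ) (n : {n // n ∈ B}),
        conj (eval (pt z) (pderiv (n, false) (∑ r ∈ range (L + 1), H r))) =
          eval (pt z) (pderiv (n, true) (∑ r ∈ range (L + 1), H r))) ∧
      ∀ (T : ℝ) (w : ℝ → WA d k), GSol d k m c e B T w →
      ∃ z ρ : ℝ → {n // n ∈ B} → ℂ,
        (∀ t ∈ Set.Icc 0 T, ∀ n, HasDerivWithinAt (fun t => z t n)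
          (-Complex.I * eval (pt (z t)) (pderiv (n, false) (∑ r ∈ range (L + 1), H r)) + ρ t n)
          (Set.Icc 0 T) t) ∧
        (∀ t ∈ Set.Icc 0 T, nw (fun n => W n.1 * pw n.1) (pt (z t)) ≤ 1 →
          nw (fun n => W n.1 * pw n.1) (pt (ρ t)) ≤
            A * nw (fun n => W n.1 * pw n.1) (pt (z t)) ^ (N + 2)) ∧
        (∀ t ∈ Set.Icc 0 T,
          nw (fun n => W n.1 * pw n.1) (pt (z t)) ≤ A * nL B (fun n => W n * pw n) (coef (w t)) ∧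
          nL B (fun n => W n * pw n) (coef (w t)) ≤ A * nw (fun n => W n.1 * pw n.1) (pt (z t)))

/-- **Stage 2, R9.** `LimThm` with the explicit radius `r = c / 16`. -/
def LimQ (d k m : ℕ) : Prop :=
  ∀ c r : ℝ, 0 < c → r = c / 16 → ∀ w₀ : WA d k, coef w₀ 0 = 0 → ‖w₀‖ ≤ r / 2 →
    ∀ T C : ℝ, 0 ≤ T →
    (∀ L : ℕ, ∀ T' ∈ Set.Icc 0 T, ∀ w : ℝ → WA d k, GSol d k m c (H836.mass w₀) (box d L) T' w →
      (∀ n ∈ box d L, coef (w 0) n = coef w₀ n) → (∀ t ∈ Set.Icc 0 T', ‖w t‖ ≤ r) →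
      ∀ t ∈ Set.Icc 0 T', ‖w t‖ ≤ r / 2 ∧ ∑ n ∈ box d L, A.W (k + 1) n * ‖coef (w t) n‖ ≤ C) →
    ∃ u : ℝ → WA d k, u 0 = cst c + w₀ ∧ IsSolution d (2 * m + 1) k T (fun t => coef (u t)) ∧
      ∀ t ∈ Set.Icc 0 T, ∃ ζ : ℂ, ‖ζ‖ = 1 ∧ ‖u t - ζ • cst c‖ ≤ 2 * r

/-- **Stage 2, R10.** The final theorem: tail bound, and almost sure bound. -/
def FinalQ (d : ℕ) : Prop :=
  ∀ (m k : ℕ), 1 ≤ m → ∃ α₁ : ℝ, ∀ (Ω : Type) [MeasurableSpace Ω] (P : MeasureTheory.Measure Ω)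
    [MeasureTheory.IsProbabilityMeasure P] (g : Lat d → Ω → ℂ), (∀ n, Measurable (g n)) →
    (∀ n, P.map (g n) = stdComplexGaussian) →
    ∀ α ≥ α₁, P {ω | lifespan d (2 * m + 1) k (datum g α ω) <
      ENNReal.ofReal (Real.exp (α ^ (11 / 10 : ℝ)))} ≤
        ENNReal.ofReal (Real.exp (-α ^ (1 / 10 : ℝ)))

end Vale.Agent.P139.BN
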