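import Mathlib.Tactic
import Vale.Agent.P139.R2.H240.TayQ

/-!
# P139, rows R7/R8: arithmetic of the constants
-/

set_option autoImplicit false

namespace Vale.Agent.P139.BN.R7

/-- The base constant. -/
noncomputable def A1c (m : ℕ) (E : ℝ) : ℝ :=
  (((m : ℝ) + 2) * (m + 2) * 4 ^ (m + 1)) * (((m : ℝ) + 1) * (Tay.A0c m * E))

/-- The exponent. -/
def ac (m : ℕ) : ℕ :=
  (2 + 2 * (2 * m + 4) + (2 * m + 1) * (2 * m + 4)) + (4 * m + 6) * (6 * m + 7) + (2 * m + 2)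

variable {m : ℕ} {E ρ : ℝ}

lemma fac (hE : 1 ≤ E) : 1 ≤ ((m : ℝ) + 2) * (m + 2) * 4 ^ (m + 1) ∧ (1 : ℝ) ≤ (m : ℝ) + 1 ∧
    1 ≤ Tay.A0c m * E ∧ 1 ≤ ((m : ℝ) + 1) * (Tay.A0c m * E) := by
  have hm : (0 : ℝ) ≤ m := Nat.cast_nonneg m
  have h1 : (1 : ℝ) ≤ (m : ℝ) + 2 := by linarith
  have h2 : (1 : ℝ) ≤ 4 ^ (m + 1) := one_le_pow₀ (by norm_num)
  have h3 : (1 : ℝ) ≤ (m : ℝ) + 1 := by linarith
  have h4 := one_le_mul_of_one_le_of_one_le (Tay.one_le_A0c m) hE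
  exact ⟨one_le_mul_of_one_le_of_one_le (one_le_mul_of_one_le_of_one_le h1 h1) h2, h3, h4,
    one_le_mul_of_one_le_of_one_le h3 h4⟩

lemma one_le_A1c (hE : 1 ≤ E) : 1 ≤ A1c m E :=
  one_le_mul_of_one_le_of_one_le (fac hE).1 (fac hE).2.2.2

/-- All factors are bounded by `Y = A₁ (ρ + ρ⁻¹)`. -/
lemma Y_facts (hE : 1 ≤ E) (hρ : 0 < ρ) {Y : ℝ} (hY : Y = A1c m E * (ρ + ρ⁻¹)) :
    4 ≤ Y ∧ ((m : ℝ) + 2) * (m + 2) * 4 ^ (m + 1) ≤ Y ∧ E ≤ Y ∧ Tay.A0c m * (ρ + ρ⁻¹) ≤ Y ∧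
      ((m : ℝ) + 1) * (ρ + ρ⁻¹) ≤ Y := by
  obtain ⟨f1, f2, f3, f4⟩ := fac (m := m) hE
  have hX : 2 ≤ ρ + ρ⁻¹ := Tay.two_le_add_inv ρ hρ
  have hX1 : 1 ≤ ρ + ρ⁻¹ := by linarith
  generalize ρ + ρ⁻¹ = X at hX hX1 hY ⊢
  have hA := Tay.one_le_A0c m
  unfold A1c at hY
  have hm : (0 : ℝ) ≤ m := Nat.cast_nonneg m
  have g1 : (4 : ℝ) ≤ ((m : ℝ) + 2) * (m + 2) * 4 ^ (m + 1) := by
    have h2 : (1 : ℝ) ≤ 4 ^ (m + 1) := one_le_pow₀ (by norm_num)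
    have h3 : (4 : ℝ) ≤ ((m : ℝ) + 2) * (m + 2) := by nlinarith
    nlinarith
  have a1 : ((m : ℝ) + 2) * (m + 2) * 4 ^ (m + 1) ≤ Y := by
    rw [hY]
    have h5 := one_le_mul_of_one_le_of_one_le f4 hX1
    calc ((m : ℝ) + 2) * (m + 2) * 4 ^ (m + 1) =
        (((m : ℝ) + 2) * (m + 2) * 4 ^ (m + 1)) * 1 := (mul_one _).symm
      _ ≤ (((m : ℝ) + 2) * (m + 2) * 4 ^ (m + 1)) * (((m : ℝ) + 1) * (Tay.A0c m * E) * X) :=
          mul_le_mul_of_nonneg_left h5 (by positivity)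
      _ = _ := by ring
  have hE0 : 0 ≤ E := by linarith
  have hA0 : 0 ≤ Tay.A0c m := by linarith
  have hX0 : 0 ≤ X := by linarith
  refine ⟨g1.trans a1, a1, ?_, ?_, ?_⟩
  · rw [hY]
    have h5 := one_le_mul_of_one_le_of_one_le (one_le_mul_of_one_le_of_one_le
      (one_le_mul_of_one_le_of_one_le f1 f2) hA) hX1
    calc E = 1 * E := (one_mul _).symm
      _ ≤ ((((m : ℝ) + 2) * (m + 2) * 4 ^ (m + 1)) * ((m : ℝ) + 1) * Tay.A0c m * X) * E :=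
          mul_le_mul_of_nonneg_right h5 hE0
      _ = _ := by ring
  · rw [hY]
    have h5 := one_le_mul_of_one_le_of_one_le (one_le_mul_of_one_le_of_one_le f1 f2) hE
    calc Tay.A0c m * X = 1 * (Tay.A0c m * X) := (one_mul _).symm
      _ ≤ ((((m : ℝ) + 2) * (m + 2) * 4 ^ (m + 1)) * ((m : ℝ) + 1) * E) * (Tay.A0c m * X) :=
          mul_le_mul_of_nonneg_right h5 (by positivity)
      _ = _ := by ring
  · rw [hY]
    have h5 := one_le_mul_of_one_le_of_one_le f1 f3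
    calc ((m : ℝ) + 1) * X = 1 * (((m : ℝ) + 1) * X) := (one_mul _).symm
      _ ≤ ((((m : ℝ) + 2) * (m + 2) * 4 ^ (m + 1)) * (Tay.A0c m * E)) * (((m : ℝ) + 1) * X) :=
          mul_le_mul_of_nonneg_right h5 (by positivity)
      _ = _ := by ring

/-- The bound of `K = 1 + μ`. -/
lemma K_le (hρ : 0 < ρ) {Y : ℝ} (hY : ((m : ℝ) + 1) * (ρ + ρ⁻¹) ≤ Y) :
    1 + m * (ρ ^ 2) ^ m ≤ Y ^ (2 * m + 1) := by
  have hX : 2 ≤ ρ + ρ⁻¹ := Tay.two_le_add_inv ρ hρ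
  have hi : 0 < ρ⁻¹ := inv_pos.2 hρ
  have h1 : ρ ≤ ρ + ρ⁻¹ := by linarith
  have hm : (0 : ℝ) ≤ m := Nat.cast_nonneg m
  have h2 : (ρ ^ 2) ^ m ≤ (ρ + ρ⁻¹) ^ (2 * m) := by
    rw [← pow_mul]
    exact pow_le_pow_left₀ hρ.le h1 _
  have h3 : 1 ≤ (ρ + ρ⁻¹) ^ (2 * m) := one_le_pow₀ (by linarith)
  calc 1 + m * (ρ ^ 2) ^ m ≤ (ρ + ρ⁻¹) ^ (2 * m) + m * (ρ + ρ⁻¹) ^ (2 * m) := by gcongr
    _ = ((m : ℝ) + 1) * (ρ + ρ⁻¹) ^ (2 * m) := by ring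
    _ ≤ ((m : ℝ) + 1) ^ (2 * m + 1) * (ρ + ρ⁻¹) ^ (2 * m + 1) := by
        refine mul_le_mul ?_ ?_ (by positivity) (by positivity)
        · exact le_self_pow₀ (by linarith) (by omega)
        · exact pow_le_pow_right₀ (by linarith) (by omega)
    _ = (((m : ℝ) + 1) * (ρ + ρ⁻¹)) ^ (2 * m + 1) := (mul_pow _ _ _).symm
    _ ≤ Y ^ (2 * m + 1) := pow_le_pow_left₀ (by positivity) hY _

lemma two_pow_bound (N : ℕ) {Y : ℝ} (hY : 4 ≤ Y) : (((N + 1 + 1 : ℕ)) : ℝ) ≤ Y ^ (N + 1) := by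
  have h1 : N + 1 + 1 ≤ 2 ^ (N + 1) := Nat.lt_two_pow_self
  calc (((N + 1 + 1 : ℕ)) : ℝ) ≤ ((2 ^ (N + 1) : ℕ) : ℝ) := by exact_mod_cast h1
    _ = (2 : ℝ) ^ (N + 1) := by push_cast; rfl
    _ ≤ Y ^ (N + 1) := pow_le_pow_left₀ (by norm_num) (by linarith) _

/-- The three inequalities. -/
theorem consts (hE : 1 ≤ E) (hρ : 0 < ρ) (N : ℕ) {K : ℝ} (hK1 : 1 ≤ K)
    (hK : K = 1 + m * (ρ ^ 2) ^ m) :
    ((m + 2) * ((m + 2) * (N + 1 + 1)) : ℕ) * (4 ^ (m + 1) * Tay.C0 m ρ ^ (N + 1 + 1) *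
      K ^ (2 * m + 2 + 2 * (N + 1))) ≤ (A1c m E * (ρ + ρ⁻¹)) ^ (ac m * (N + 1)) ∧
    ((E * K * Tay.C0 m ρ) ^ (6 * m + 7)) ^ (N + 1) ≤ (A1c m E * (ρ + ρ⁻¹)) ^ (ac m * (N + 1)) ∧
    4 * K ≤ (A1c m E * (ρ + ρ⁻¹)) ^ (ac m * (N + 1)) := by
  obtain ⟨Y, hY⟩ : ∃ Y, Y = A1c m E * (ρ + ρ⁻¹) := ⟨_, rfl⟩
  obtain ⟨y1, y2, y3, y4, y5⟩ := Y_facts (m := m) hE hρ hY
  have hY1 : 1 ≤ Y := by linarith
  have hY0 : 0 ≤ Y := by linarith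
  have hKY : K ≤ Y ^ (2 * m + 1) := hK ▸ K_le hρ y5
  have hX : 2 ≤ ρ + ρ⁻¹ := Tay.two_le_add_inv ρ hρ
  have hC0 : 1 ≤ Tay.C0 m ρ := Tay.one_le_C0 m ρ hρ
  have hCY : Tay.C0 m ρ ≤ Y ^ (2 * m + 4) := (Tay.C0_le m ρ hρ).trans
    (pow_le_pow_left₀ (mul_nonneg (by linarith [Tay.one_le_A0c m]) (by linarith)) y4 _)
  rw [← hY]
  have hm : (0 : ℝ) ≤ m := Nat.cast_nonneg m
  refine ⟨?_, ?_, ?_⟩
  · calc (((m + 2) * ((m + 2) * (N + 1 + 1)) : ℕ) : ℝ) * (4 ^ (m + 1) * Tay.C0 m ρ ^ (N + 1 + 1) *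
        K ^ (2 * m + 2 + 2 * (N + 1)))
      _ = (((m : ℝ) + 2) * (m + 2) * 4 ^ (m + 1)) * ((N + 1 + 1 : ℕ) : ℝ) *
          Tay.C0 m ρ ^ (N + 1 + 1) * K ^ (2 * m + 2 + 2 * (N + 1)) := by
        push_cast
        ring
      _ ≤ Y * Y ^ (N + 1) * (Y ^ (2 * m + 4)) ^ (N + 1 + 1) *
          (Y ^ (2 * m + 1)) ^ (2 * m + 2 + 2 * (N + 1)) := by
        refine mul_le_mul (mul_le_mul (mul_le_mul y2 (two_pow_bound N y1) (by positivity) hY0)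
          (pow_le_pow_left₀ (by linarith) hCY _) (by positivity) (by positivity))
          (pow_le_pow_left₀ (by linarith) hKY _) (by positivity) (by positivity)
      _ = Y ^ (1 + (N + 1) + (2 * m + 4) * (N + 1 + 1) +
          (2 * m + 1) * (2 * m + 2 + 2 * (N + 1))) := by
        rw [← pow_mul, ← pow_mul, ← pow_succ', ← pow_add, ← pow_add]
        congr 1
        ring
      _ ≤ _ := by
        refine pow_le_pow_right₀ hY1 ?_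
        unfold ac
        nlinarith [Nat.zero_le (m * N), Nat.zero_le N, Nat.zero_le (m * m * N)]
  · calc ((E * K * Tay.C0 m ρ) ^ (6 * m + 7)) ^ (N + 1)
      _ ≤ ((Y * Y ^ (2 * m + 1) * Y ^ (2 * m + 4)) ^ (6 * m + 7)) ^ (N + 1) := by
        refine pow_le_pow_left₀ (by positivity) (pow_le_pow_left₀ (by positivity) ?_ _) _
        exact mul_le_mul (mul_le_mul y3 hKY (by linarith) hY0) hCY (by linarith) (by positivity)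
      _ = Y ^ ((4 * m + 6) * (6 * m + 7) * (N + 1)) := by
        rw [← pow_succ', ← pow_add, ← pow_mul, ← pow_mul]
        congr 1
        ring
      _ ≤ _ := by
        refine pow_le_pow_right₀ hY1 ?_
        unfold ac
        exact Nat.mul_le_mul_right _ (by omega)
  · calc 4 * K ≤ Y * Y ^ (2 * m + 1) := mul_le_mul y1 hKY (by linarith) hY0
      _ = Y ^ ((2 * m + 2) * 1) := by rw [← pow_succ', mul_one]
      _ ≤ _ := by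
        refine pow_le_pow_right₀ hY1 (Nat.mul_le_mul ?_ (by omega))
        unfold ac
        omega

end Vale.Agent.P139.BN.R7
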