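import Vale.Agent.P139.R2.H556.Ham5
import Vale.Agent.P139.R2.H556.Cq
import Vale.Agent.P139.R2.H628.Bog
import Vale.Agent.P139.R2.H280.BogNorm

/-!
# P139, rows R7/R8: `HamQ` and `HamThm`
-/

set_option autoImplicit false

open MvPolynomial Finset
open scoped ComplexConjugate

namespace Vale.Agent.P139.BN.R7

open Vale.Agent.P139.A Vale.Agent.P139.A.WA

variable {d : ℕ}

theorem b2 {k m : ℕ} {c e : ℝ} {B : Finset (Lat d)} {T : ℝ} {w : ℝ → WA d k} (μ : ℝ)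
    (hB : ∀ n ∈ B, -n ∈ B) (h0 : (0 : Lat d) ∉ B) (h : GSol d k m c e B T w) :
    ∀ t ∈ Set.Icc 0 T, ∀ n ∈ B, HasDerivWithinAt
      (fun t => (bA μ n : ℂ) * coef (w t) n - (bB μ n : ℂ) * conj (coef (w t) (-n)))
      (-Complex.I * (sqNorm n * (bA μ n * coef (w t) n + bB μ n * conj (coef (w t) (-n))) +
        bA μ n * (coef (F m (cst (H836.bz c e (w t)) + w t)) n -
          g m (cst (H836.bz c e (w t)) + w t) * coef (w t) n) +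
        bB μ n * conj (coef (F m (cst (H836.bz c e (w t)) + w t)) (-n) -
          g m (cst (H836.bz c e (w t)) + w t) * coef (w t) (-n)))) (Set.Icc 0 T) t :=
  fun _ ht _ hn => H628.deriv_zb h0 h μ ht hB hn

theorem b3 {k : ℕ} {B : Finset (Lat d)} (hB : ∀ n ∈ B, -n ∈ B) (h0 : (0 : Lat d) ∉ B) {μ : ℝ}
    (hμ : 0 ≤ μ) {w : Lat d → ℝ} (hw : ∀ n, w (-n) = w n) (x : WA d k) :
    nw (fun n : {n // n ∈ B} => w n.1) (pt (zz μ x)) ≤ 4 * (1 + μ) * nL B w (coef x) ∧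
    nL B w (coef x) ≤ 4 * (1 + μ) * nw (fun n : {n // n ∈ B} => w n.1) (pt (zz μ x)) :=
  ⟨H280.nw_zz_le hμ hB h0 (coef x) w hw, H280.nL_le_nw hμ hB h0 (coef x) w hw⟩

theorem hamQ (d : ℕ) : HamQ d := by
  classical
  intro m q hm hdq hq1
  obtain ⟨E, hE, hrem⟩ := R8.rem_boundE d m q hdq
  refine ⟨ac m, A1c m E, one_le_A1c hE, ?_⟩
  intro N L A hL k c e hc he hA B hB h0 W pw hW1 hWn hWm hpw
  set ρ₀ : ℝ := Real.sqrt (c ^ 2 + e) with hρ₀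
  have hM : 0 < c ^ 2 + e := by positivity
  have hρ : 0 < ρ₀ := Real.sqrt_pos.2 hM
  have hρ2 : ρ₀ ^ 2 = c ^ 2 + e := Real.sq_sqrt hM.le
  set μ : ℝ := m * (c ^ 2 + e) ^ m with hμd
  have hμ : 0 ≤ μ := by positivity
  set K : ℝ := 1 + μ with hKd
  have hK1 : 1 ≤ K := by linarith
  have hKe : K = 1 + m * (ρ₀ ^ 2) ^ m := by rw [hρ2]
  obtain ⟨q1, q2, q3⟩ := consts (m := m) hE hρ N hK1 hKe
  rw [← hA] at q1 q2 q3
  have hC0 : 1 ≤ Tay.C0 m ρ₀ := Tay.one_le_C0 m ρ₀ hρ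
  have hb1 : ρ₀ / 2 ≤ Real.sqrt (c ^ 2 + e) := by linarith
  have hb2 : Real.sqrt (c ^ 2 + e) ≤ 2 * ρ₀ := by linarith
  have hpe : ∀ n, W (-n) * pw (-n) = W n * pw n := by
    intro n
    rw [hWn, hpw, hpw, sqNorm_neg]
  have hLL : L + 1 = 2 * m + 2 * (N + 1) + 1 := by omega
  refine ⟨fun r => Hh (mv B) (cc μ) (cs μ) m (N + 1) (Tay.tau (c ^ 2 + e)) (kin hB μ) r,
    ?_, ?_, ?_, ?_, ?_⟩
  · refine Hh_zero hB μ hm (by omega) hμ h0 ?_ ?_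
    · rw [Tay.tau_two_mul_zero _ hM.le]
    · rw [Tay.tau_succ_one _ hM, Tay.tau_two_mul_zero _ hM.le]
  · intro r hr
    refine cls_mono (mv B) D0_nonneg (cls_Hh (mv B) (kin hB μ) hK1
      (pow_nonneg (by linarith : (0:ℝ) ≤ Tay.C0 m ρ₀) _) (norm_cc_le hμ h0) (norm_cs_le hμ h0)
      (fun q hq l hl => Tay.abs_tau_le' m ρ₀ hρ _ hb1 hb2 q hq (N + 1) l hl) hr) ?_
    exact q1
  · intro r hr
    exact Hh_eq_zero (mv B) (kin hB μ) (by omega)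
  · intro z n
    rw [hLL]
    exact reality hB h0 z n
  · intro T w hw
    refine ⟨fun t => zz μ (w t), fun t => rho m (N + 1) (Tay.tau (c ^ 2 + e)) μ
      (H836.bz c e (w t)) (zz μ (w t)), ?_, ?_, ?_⟩
    · intro t ht n
      have hs : ∀ n, n ∉ B → coef (w t) n = 0 := hw.supp t ht
      obtain ⟨f1, f2, f3, f4⟩ := mass_facts hc he (hw.small t ht) (hs 0 h0)
      have h1 := b2 μ hB h0 hw t ht n.1 n.2
      have h2 := field_eq hB (m := m) (Lt := N + 1) (τ := Tay.tau (c ^ 2 + e)) hμ h0 f3.ne' hs n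
      rw [hLL]
      rw [h2] at h1
      exact h1
    · intro t ht hz
      have hs : ∀ n, n ∉ B → coef (w t) n = 0 := hw.supp t ht
      obtain ⟨f1, f2, f3, f4⟩ := mass_facts hc he (hw.small t ht) (hs 0 h0)
      have hG := eval_G11 (Ev_cc_eq hB μ (zz μ (w t)) (w t) hs (zz_inv hB hμ h0 (w t)))
      have key := hrem K (Tay.C0 m ρ₀) hK1 hC0 N (N + 1) rfl B h0 W pw hW1 hWn hWm hpw
        (cc μ) (cs μ) (norm_cc_le hμ h0) (norm_cs_le hμ h0) (zz μ (w t)) (H836.mass (w t)) f1 hG hz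
        (fun r => TT (N + 1) (Tay.tau (c ^ 2 + e)) r (H836.mass (w t)) -
          (H836.bz c e (w t) : ℂ) ^ r)
        (fun r => TD (N + 1) (Tay.tau (c ^ 2 + e)) r (H836.mass (w t)) +
          (r : ℂ) / 2 * (H836.bz c e (w t) : ℂ) ^ r / (H836.bz c e (w t) : ℂ) ^ 2)
        (fun r hr => Tay.norm_TT_sub_le m ρ₀ hρ _ hb1 hb2 r hr (N + 1) _ _ f1 f2 f3.le f4)
        (fun r hr => Tay.norm_TD_add_le m ρ₀ hρ _ hb1 hb2 r hr (N + 1) _ _ f1 f2 f3.le f4)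
        Complex.I (by simp) (rho m (N + 1) (Tay.tau (c ^ 2 + e)) μ (H836.bz c e (w t)) (zz μ (w t)))
        (fun n => by
          unfold rho
          rw [NG_sub_TG hG])
      refine key.trans ?_
      exact mul_le_mul_of_nonneg_right q2 (pow_nonneg (Real.sqrt_nonneg _) _)
    · intro t ht
      obtain ⟨g1, g2⟩ := b3 hB h0 hμ (w := fun n => W n * pw n) hpe (w t)
      have hA4 : 4 * (1 + μ) ≤ A := q3
      exact ⟨g1.trans (mul_le_mul_of_nonneg_right hA4 (Real.sqrt_nonneg _)),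
        g2.trans (mul_le_mul_of_nonneg_right hA4 (Real.sqrt_nonneg _))⟩

/-- `HamThm` from `HamQ` by monotonicity in `A`. -/
theorem hamThm_of (h : HamQ d) : HamThm d := by
  intro m q ρ₀ hm hdq hq1 hρ₀
  obtain ⟨a, A₁, hA₁, h⟩ := h m q hm hdq hq1
  have hi : 0 < ρ₀⁻¹ := inv_pos.2 hρ₀
  have hX2 := Tay.two_le_add_inv ρ₀ hρ₀
  have hX0 : 1 ≤ 2 * (ρ₀ + ρ₀⁻¹) := by linarith
  refine ⟨(A₁ * (2 * (ρ₀ + ρ₀⁻¹))) ^ a, ρ₀ / 2, one_le_pow₀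
    (one_le_mul_of_one_le_of_one_le hA₁ hX0), by positivity, ?_⟩
  intro N L A hL hA k c e hc he hρ B hB h0 W pw hW1 hWn hWm hpw
  set ρ : ℝ := Real.sqrt (c ^ 2 + e) with hρd
  have h1 : ρ₀ / 2 ≤ ρ ∧ ρ ≤ 2 * ρ₀ := by
    have := abs_le.1 hρ
    constructor <;> linarith
  have hρ0 : 0 < ρ := by linarith
  have h2 : ρ⁻¹ ≤ 2 * ρ₀⁻¹ := by
    have h3 : ρ⁻¹ ≤ (ρ₀ / 2)⁻¹ := inv_anti₀ (by positivity) h1.1
    rw [inv_div] at h3
    rw [← div_eq_mul_inv]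
    exact h3
  have hX : ρ + ρ⁻¹ ≤ 2 * (ρ₀ + ρ₀⁻¹) := by linarith
  have hρi : 0 < ρ⁻¹ := inv_pos.2 hρ0
  have hAA : (A₁ * (ρ + ρ⁻¹)) ^ (a * (N + 1)) ≤ A := by
    rw [hA, ← pow_mul]
    refine pow_le_pow_left₀ (by positivity) ?_ _
    exact mul_le_mul_of_nonneg_left hX (by linarith)
  obtain ⟨H, g1, g2, g3, g4, g5⟩ := h N L _ hL k c e hc he rfl B hB h0 W pw hW1 hWn hWm hpw
  refine ⟨H, g1, fun r hr => cls_mono _ D0_nonneg (g2 r hr) hAA, g3, g4, ?_⟩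
  intro T w hw
  obtain ⟨z, ρ', f1, f2, f3⟩ := g5 T w hw
  refine ⟨z, ρ', f1, fun t ht hz => (f2 t ht hz).trans
    (mul_le_mul_of_nonneg_right hAA (pow_nonneg (Real.sqrt_nonneg _) _)), fun t ht => ?_⟩
  exact ⟨(f3 t ht).1.trans (mul_le_mul_of_nonneg_right hAA (Real.sqrt_nonneg _)),
    (f3 t ht).2.trans (mul_le_mul_of_nonneg_right hAA (Real.sqrt_nonneg _))⟩

theorem hamThm (d : ℕ) : HamThm d := hamThm_of (hamQ d)

end Vale.Agent.P139.BN.R7
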