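import Vale.Agent.P139.R2.H556.GA

/-!
# P139, row R7: the Hamiltonian in the diagonal variables
-/

set_option autoImplicit false

open MvPolynomial Finset
open scoped ComplexConjugate

namespace Vale.Agent.P139.BN.R7

open Vale.Agent.P139.A Vale.Agent.P139.A.WA
open AddMonoidAlgebra (single)

variable {ι : Type} {d : ℕ} [Fintype ι]

lemma cls_smul (mo : ι → Lat d) {D : WS ι} {j : ℕ} {F : ℝ} {P : Pl ι} (c : ℂ) {F' : ℝ}
    (hF : ‖c‖ * F ≤ F') (hD : ∀ I, 0 ≤ D j I) (hP : Cls mo D j F P) : Cls mo D j F' (C c * P) := by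
  obtain ⟨a, ha, ha0, rfl⟩ := hP
  refine ⟨fun I => c * a I, fun I => ?_, fun I hI => ?_, ?_⟩
  · dsimp only
    rw [norm_mul]
    calc ‖c‖ * ‖a I‖ ≤ ‖c‖ * (F * D j I) := mul_le_mul_of_nonneg_left (ha I) (norm_nonneg _)
      _ = (‖c‖ * F) * D j I := by ring
      _ ≤ F' * D j I := mul_le_mul_of_nonneg_right hF (hD I)
  · dsimp only
    rw [ha0 I hI, mul_zero]
  · rw [mul_sum]
    refine sum_congr rfl fun I _ => ?_
    dsimp only
    rw [map_mul]
    ring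

lemma cls_zero (mo : ι → Lat d) {D : WS ι} {j : ℕ} {F : ℝ} (hF : 0 ≤ F) (hD : ∀ I, 0 ≤ D j I) :
    Cls mo D j F (0 : Pl ι) :=
  ⟨fun _ => 0, fun I => by simpa using mul_nonneg hF (hD I), fun _ _ => rfl, by simp⟩

lemma cls_add (mo : ι → Lat d) {D : WS ι} {j : ℕ} {F F' : ℝ} {P Q : Pl ι}
    (hP : Cls mo D j F P) (hQ : Cls mo D j F' Q) : Cls mo D j (F + F') (P + Q) := by
  obtain ⟨a, ha, ha0, rfl⟩ := hP
  obtain ⟨b, hb, hb0, rfl⟩ := hQ
  refine ⟨fun I => a I + b I, fun I => ?_, fun I hI => ?_, ?_⟩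
  · dsimp only
    rw [add_mul]
    exact (norm_add_le _ _).trans (add_le_add (ha I) (hb I))
  · dsimp only
    rw [ha0 I hI, hb0 I hI, add_zero]
  · rw [← sum_add_distrib]
    refine sum_congr rfl fun I _ => ?_
    dsimp only
    rw [map_add]
    ring

lemma cls_sum (mo : ι → Lat d) {D : WS ι} {j : ℕ} (hD : ∀ I, 0 ≤ D j I) {κ : Type*} (s : Finset κ)
    (F : κ → ℝ) (P : κ → Pl ι) (h : ∀ x ∈ s, Cls mo D j (F x) (P x)) :
    Cls mo D j (∑ x ∈ s, F x) (∑ x ∈ s, P x) := by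
  classical
  induction s using Finset.induction_on with
  | empty => simpa using cls_zero mo le_rfl hD
  | insert x s hx ih =>
    rw [sum_insert hx, sum_insert hx]
    exact cls_add mo (h x (mem_insert_self _ _)) (ih fun y hy => h y (mem_insert_of_mem hy))

lemma cls_mono (mo : ι → Lat d) {D : WS ι} {j : ℕ} (hD : ∀ I, 0 ≤ D j I) {F F' : ℝ} {P : Pl ι}
    (hP : Cls mo D j F P) (h : F ≤ F') : Cls mo D j F' P := by
  obtain ⟨a, ha, ha0, rfl⟩ := hP
  exact ⟨a, fun I => (ha I).trans (mul_le_mul_of_nonneg_right h (hD I)), ha0, rfl⟩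

omit [Fintype ι] in
lemma D0_nonneg {j : ℕ} (I : Fin j → ι × Bool) : (0 : ℝ) ≤ D0 j I := by
  simp [D0]

/-! ## The polynomials -/

section Def

variable (mo : ι → Lat d) (c cs : ι × Bool → ℂ) (m Lt : ℕ) (τ : ℕ → ℕ → ℝ) (kin : Pl ι)

/-- Coefficients. -/
noncomputable def co (a b l : ℕ) : ℝ :=
  ((m + 1).choose a : ℝ) * ((m + 1).choose b) / (m + 1) * τ (2 * m + 2 - a - b) l

/-- One term of the Hamiltonian. -/
noncomputable def tm (x : ℕ × ℕ × ℕ) : Pl ι :=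
  C (co m τ x.1 x.2.1 x.2.2 : ℂ) * (G mo c cs 1 1 ^ x.2.2 * G mo c cs x.1 x.2.1)

/-- The index set. -/
def idx : Finset (ℕ × ℕ × ℕ) := range (m + 2) ×ˢ range (m + 2) ×ˢ range (Lt + 1)

/-- The homogeneous components. -/
noncomputable def Hh (r : ℕ) : Pl ι :=
  (if r = 0 then kin else 0) +
    ∑ x ∈ (idx m Lt).filter fun x => x.1 + x.2.1 + 2 * x.2.2 = r + 2, tm mo c cs m τ x

lemma mem_idx {m Lt : ℕ} {x : ℕ × ℕ × ℕ} :
    x ∈ idx m Lt ↔ x.1 ≤ m + 1 ∧ x.2.1 ≤ m + 1 ∧ x.2.2 ≤ Lt := by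
  simp only [idx, mem_product, mem_range]
  omega

lemma card_idx : (idx m Lt).card = (m + 2) * ((m + 2) * (Lt + 1)) := by
  simp [idx]

variable {c cs m Lt τ}

lemma abs_co_le {T : ℝ} (hT0 : 0 ≤ T) (hT : ∀ q ≤ 2 * m + 2, ∀ l ≤ Lt, |τ q l| ≤ T) {a b l : ℕ}
    (hl : l ≤ Lt) : |co m τ a b l| ≤ 4 ^ (m + 1) * T := by
  unfold co
  rw [abs_mul, abs_div, abs_mul, Nat.abs_cast, Nat.abs_cast]
  have h1 : ((m + 1).choose a : ℝ) ≤ 2 ^ (m + 1) := by
    exact_mod_cast Nat.choose_le_two_pow _ _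
  have h2 : ((m + 1).choose b : ℝ) ≤ 2 ^ (m + 1) := by
    exact_mod_cast Nat.choose_le_two_pow _ _
  have h3 : (1 : ℝ) ≤ |(m : ℝ) + 1| := by
    rw [abs_of_nonneg (by positivity)]
    linarith [Nat.cast_nonneg (α := ℝ) m]
  have h4 := hT (2 * m + 2 - a - b) (by omega) l hl
  calc ((m + 1).choose a : ℝ) * ((m + 1).choose b) / |(m : ℝ) + 1| * |τ (2 * m + 2 - a - b) l|
      ≤ (2 ^ (m + 1) * 2 ^ (m + 1)) / 1 * T := by gcongr
    _ = 4 ^ (m + 1) * T := by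
        rw [div_one, ← mul_pow]
        norm_num

/-- Class of the homogeneous components. -/
theorem cls_Hh {K T : ℝ} (hK : 1 ≤ K) (hT0 : 0 ≤ T) (hc : ∀ v, ‖c v‖ ≤ K) (hcs : ∀ v, ‖cs v‖ ≤ K)
    (hT : ∀ q ≤ 2 * m + 2, ∀ l ≤ Lt, |τ q l| ≤ T) {r : ℕ} (hr : 1 ≤ r) :
    Cls mo D0 (r + 2) (((m + 2) * ((m + 2) * (Lt + 1)) : ℕ) * (4 ^ (m + 1) * T *
      K ^ (2 * m + 2 + 2 * Lt))) (Hh mo c cs m Lt τ kin r) := by
  unfold Hh
  rw [if_neg (by omega), zero_add]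
  have h1 := cls_sum mo (j := r + 2) (D := D0) D0_nonneg
    ((idx m Lt).filter fun x => x.1 + x.2.1 + 2 * x.2.2 = r + 2)
    (fun _ => 4 ^ (m + 1) * T * K ^ (2 * m + 2 + 2 * Lt)) (tm mo c cs m τ) (fun x hx => by
      rw [mem_filter, mem_idx] at hx
      obtain ⟨⟨hx1, hx2, hx3⟩, hx4⟩ := hx
      unfold tm
      have hK0 : 0 ≤ K := by linarith
      have h2 := cls_mul mo (pow_nonneg (pow_nonneg hK0 _) _)
        (cls_pow mo (pow_nonneg hK0 _) (cls_G mo c cs 1 1 hc hcs) x.2.2)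
        (cls_G mo c cs x.1 x.2.1 hc hcs)
      rw [show x.2.2 * (1 + 1) + (x.1 + x.2.1) = r + 2 by omega] at h2
      refine cls_smul mo _ ?_ D0_nonneg h2
      rw [Complex.norm_real, Real.norm_eq_abs]
      refine mul_le_mul (abs_co_le hT0 hT hx3) ?_ (by positivity) (by positivity)
      rw [← pow_mul, ← pow_add]
      exact pow_le_pow_right₀ hK (by omega))
  refine cls_mono mo D0_nonneg h1 ?_
  rw [sum_const, nsmul_eq_mul]
  have h3 : ((idx m Lt).filter fun x => x.1 + x.2.1 + 2 * x.2.2 = r + 2).card ≤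
      (m + 2) * ((m + 2) * (Lt + 1)) := (card_filter_le _ _).trans (card_idx m Lt).le
  have hK0 : 0 ≤ K := by linarith
  exact mul_le_mul_of_nonneg_right (by exact_mod_cast h3) (by positivity)

lemma Hh_eq_zero {r : ℕ} (hr : 2 * m + 2 * Lt < r) : Hh mo c cs m Lt τ kin r = 0 := by
  unfold Hh
  rw [if_neg (by omega), zero_add]
  refine sum_eq_zero fun x hx => ?_
  rw [mem_filter, mem_idx] at hx
  omega

/-- The sum of the homogeneous components. -/
theorem sum_Hh : ∑ r ∈ range (2 * m + 2 * Lt + 1), Hh mo c cs m Lt τ kin r =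
    kin + ∑ x ∈ (idx m Lt).filter fun x => 2 ≤ x.1 + x.2.1 + 2 * x.2.2, tm mo c cs m τ x := by
  unfold Hh
  rw [sum_add_distrib]
  congr 1
  · rw [sum_ite_eq' (range (2 * m + 2 * Lt + 1)) 0 (fun _ => kin), if_pos (by simp)]
  · rw [← sum_biUnion]
    · refine sum_congr ?_ fun _ _ => rfl
      ext x
      simp only [mem_biUnion, mem_range, mem_filter, mem_idx]
      constructor
      · rintro ⟨r, hr, h1, h2⟩
        exact ⟨h1, by omega⟩
      · rintro ⟨h1, h2⟩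
        exact ⟨x.1 + x.2.1 + 2 * x.2.2 - 2, by omega, h1, by omega⟩
    · intro r _ r' _ hrr
      rw [Function.onFun, disjoint_left]
      intro x hx hx'
      rw [mem_filter] at hx hx'
      omega

lemma G_zero_zero : G mo c cs 0 0 = 1 := by
  unfold G
  rw [pow_zero, pow_zero, mul_one, AddMonoidAlgebra.one_def]
  simp

lemma G_one_zero (h : ∀ n, mo n ≠ 0) : G mo c cs 1 0 = 0 := by
  unfold G
  rw [pow_one, pow_zero, mul_one]
  unfold fld
  rw [coeff_sum_single]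
  refine sum_eq_zero fun v _ => if_neg ?_
  unfold sm
  split_ifs
  · exact h _
  · exact neg_ne_zero.2 (h _)

lemma G_zero_one (h : ∀ n, mo n ≠ 0) : G mo c cs 0 1 = 0 := by
  unfold G
  rw [pow_one, pow_zero, one_mul]
  unfold fld
  rw [coeff_sum_single]
  refine sum_eq_zero fun v _ => if_neg ?_
  unfold sm
  split_ifs
  · exact h _
  · exact neg_ne_zero.2 (h _)

theorem pderiv_sum_Hh [DecidableEq ι] (h : ∀ n, mo n ≠ 0) (v : ι × Bool) :
    pderiv v (∑ r ∈ range (2 * m + 2 * Lt + 1), Hh mo c cs m Lt τ kin r) =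
      pderiv v kin + ∑ x ∈ idx m Lt, pderiv v (tm mo c cs m τ x) := by
  rw [sum_Hh, map_add, map_sum]
  congr 1
  refine sum_subset (filter_subset _ _) fun x hx hx' => ?_
  obtain ⟨a, b, l⟩ := x
  have h1 : ¬ (2 ≤ a + b + 2 * l) := fun h2 => hx' (mem_filter.2 ⟨hx, h2⟩)
  have h2 : l = 0 := by omega
  subst h2
  have h3 : (a = 0 ∧ b = 0) ∨ (a = 1 ∧ b = 0) ∨ (a = 0 ∧ b = 1) := by omega
  unfold tm
  rcases h3 with ⟨rfl, rfl⟩ | ⟨rfl, rfl⟩ | ⟨rfl, rfl⟩
  · simp only [G_zero_zero, pow_zero, mul_one, pderiv_C]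
  · simp only [G_one_zero mo h, mul_zero, map_zero]
  · simp only [G_zero_one mo h, mul_zero, map_zero]

/-- Truncated power series and its derivative. -/
noncomputable def TT (Lt : ℕ) (τ : ℕ → ℕ → ℝ) (q : ℕ) (s : ℂ) : ℂ :=
  ∑ l ∈ range (Lt + 1), (τ q l : ℂ) * s ^ l

/-- The derivative of `TT`. -/
noncomputable def TD (Lt : ℕ) (τ : ℕ → ℕ → ℝ) (q : ℕ) (s : ℂ) : ℂ :=
  ∑ l ∈ range (Lt + 1), (τ q l : ℂ) * (l * s ^ (l - 1))

/-- The combinatorial prefactor. -/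
noncomputable def cf (m a b : ℕ) : ℝ := ((m + 1).choose a : ℝ) * ((m + 1).choose b) / (m + 1)

/-- Evaluation of the gradient of the Hamiltonian. -/
theorem eval_pderiv_sum_Hh [DecidableEq ι] (h : ∀ n, mo n ≠ 0) (v : ι × Bool)
    (y : ι × Bool → ℂ) :
    eval y (pderiv v (∑ r ∈ range (2 * m + 2 * Lt + 1), Hh mo c cs m Lt τ kin r)) =
      eval y (pderiv v kin) + ∑ a ∈ range (m + 2), ∑ b ∈ range (m + 2), (cf m a b : ℂ) *
        (TD Lt τ (2 * m + 2 - a - b) (eval y (G mo c cs 1 1)) *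
            eval y (pderiv v (G mo c cs 1 1)) * eval y (G mo c cs a b) +
          TT Lt τ (2 * m + 2 - a - b) (eval y (G mo c cs 1 1)) *
            eval y (pderiv v (G mo c cs a b))) := by
  rw [pderiv_sum_Hh mo kin h, map_add, map_sum]
  congr 1
  unfold idx
  rw [sum_product]
  refine sum_congr rfl fun a _ => ?_
  rw [sum_product]
  refine sum_congr rfl fun b _ => ?_
  unfold TT TD
  rw [sum_mul, sum_mul, sum_mul, ← sum_add_distrib, mul_sum]
  refine sum_congr rfl fun l _ => ?_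
  unfold tm co cf
  dsimp only
  rw [pderiv_C_mul, Derivation.leibniz, Derivation.leibniz_pow]
  simp only [smul_eq_mul, nsmul_eq_mul, map_add, map_mul, map_pow, map_natCast, eval_C]
  push_cast
  ring

end Def

end Vale.Agent.P139.BN.R7
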