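import Vale.Agent.P139.R2.H556.Defs

/-!
# P139: the coefficients of the Bogoliubov transform
-/

set_option autoImplicit false

open scoped ComplexConjugate

namespace Vale.Agent.P139.BN

open Vale.Agent.P139.A Vale.Agent.P139.A.WA

variable {d : ℕ}

/-- `sqrt (|n|² / Ω_n)`. -/
noncomputable def bt (μ : ℝ) (n : Lat d) : ℝ := Real.sqrt (sqNorm n / Om μ n)

/-- The Bogoliubov coefficient `α_n`. -/
noncomputable def bA (μ : ℝ) (n : Lat d) : ℝ := (bt μ n + (bt μ n)⁻¹) / 2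

/-- The Bogoliubov coefficient `β_n`. -/
noncomputable def bB (μ : ℝ) (n : Lat d) : ℝ := (bt μ n - (bt μ n)⁻¹) / 2

lemma bt_neg (μ : ℝ) (n : Lat d) : bt μ (-n) = bt μ n := by
  unfold bt
  rw [Om_neg, sqNorm_neg]

lemma bA_neg (μ : ℝ) (n : Lat d) : bA μ (-n) = bA μ n := by
  unfold bA
  rw [bt_neg]

lemma bB_neg (μ : ℝ) (n : Lat d) : bB μ (-n) = bB μ n := by
  unfold bB
  rw [bt_neg]

section

variable {μ : ℝ} (hμ : 0 ≤ μ) {n : Lat d} (hn : n ≠ 0)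

include hμ hn

lemma Om_pos' : 0 < Om μ n := lt_of_lt_of_le one_pos (one_le_Om hμ hn)

omit hμ in
lemma sq_pos' : 0 < sqNorm n := lt_of_lt_of_le one_pos (one_le_sqNorm hn)

lemma bt_pos : 0 < bt μ n := Real.sqrt_pos.2 (div_pos (sq_pos' hn) (Om_pos' hμ hn))

lemma bt_sq : bt μ n ^ 2 = sqNorm n / Om μ n :=
  Real.sq_sqrt (div_pos (sq_pos' hn) (Om_pos' hμ hn)).le

lemma bA_sq_sub : bA μ n ^ 2 - bB μ n ^ 2 = 1 := by
  have h := (bt_pos hμ hn).ne'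
  unfold bA bB
  field_simp
  ring

lemma bA_sq_add : bA μ n ^ 2 + bB μ n ^ 2 = (sqNorm n + μ) / Om μ n := by
  have h := (bt_pos hμ hn).ne'
  have h1 := bt_sq hμ hn
  have h2 := Om_sq hμ n
  have h3 := (Om_pos' hμ hn).ne'
  have h4 := (sq_pos' hn).ne'
  have h5 : bA μ n ^ 2 + bB μ n ^ 2 = (bt μ n ^ 2 + (bt μ n ^ 2)⁻¹) / 2 := by
    unfold bA bB
    field_simp
    ring
  rw [h5, h1]
  field_simp
  rw [h2]
  ring

lemma two_bA_mul_bB : 2 * (bA μ n * bB μ n) = -μ / Om μ n := by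
  have h := (bt_pos hμ hn).ne'
  have h1 := bt_sq hμ hn
  have h2 := Om_sq hμ n
  have h3 := (Om_pos' hμ hn).ne'
  have h4 := (sq_pos' hn).ne'
  have h5 : 2 * (bA μ n * bB μ n) = (bt μ n ^ 2 - (bt μ n ^ 2)⁻¹) / 2 := by
    unfold bA bB
    field_simp
    ring
  rw [h5, h1]
  field_simp
  rw [h2]
  ring

lemma bA_sq_le : bA μ n ^ 2 + bB μ n ^ 2 ≤ 1 + μ := by
  rw [bA_sq_add hμ hn, div_le_iff₀ (Om_pos' hμ hn)]
  have h1 := one_le_sqNorm hn
  have h2 : sqNorm n ≤ Om μ n := by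
    unfold Om
    refine Real.le_sqrt_of_sq_le ?_
    nlinarith
  nlinarith

lemma bA_le : |bA μ n| ≤ 1 + μ := by
  refine abs_le_of_sq_le_sq ?_ (by linarith)
  nlinarith [bA_sq_le hμ hn, sq_nonneg (bB μ n)]

lemma bB_le : |bB μ n| ≤ 1 + μ := by
  refine abs_le_of_sq_le_sq ?_ (by linarith)
  nlinarith [bA_sq_le hμ hn, sq_nonneg (bA μ n)]

/-- The diagonal coefficient. -/
lemma bog_diag : (sqNorm n + μ) * (bA μ n ^ 2 + bB μ n ^ 2) + 2 * μ * (bA μ n * bB μ n) = Om μ n := by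
  have h3 := (Om_pos' hμ hn).ne'
  have h2 := Om_sq hμ n
  rw [bA_sq_add hμ hn, show 2 * μ * (bA μ n * bB μ n) = μ * (2 * (bA μ n * bB μ n)) by ring,
    two_bA_mul_bB hμ hn]
  field_simp
  rw [h2]
  ring

/-- The off-diagonal coefficient vanishes. -/
lemma bog_off : (sqNorm n + μ) * (bA μ n * bB μ n) + μ / 2 * (bA μ n ^ 2 + bB μ n ^ 2) = 0 := by
  have h3 := (Om_pos' hμ hn).ne'
  have h4 : bA μ n * bB μ n = (-μ / Om μ n) / 2 := by
    rw [← two_bA_mul_bB hμ hn]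
    ring
  rw [bA_sq_add hμ hn, h4]
  field_simp
  ring

end

end Vale.Agent.P139.BN
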