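import Vale.Agent.P139.R2.H556.Defs

/-!
# P139, row R7: trigonometric polynomials with coefficients in `Pl ι`
-/

set_option autoImplicit false

open MvPolynomial Finset
open scoped ComplexConjugate

namespace Vale.Agent.P139.BN.R7

open Vale.Agent.P139.A Vale.Agent.P139.A.WA
open AddMonoidAlgebra (single)

variable {ι : Type} {d : ℕ}

/-- Trigonometric polynomials with coefficients in `Pl ι`. -/
abbrev GA (ι : Type) (d : ℕ) := AddMonoidAlgebra (Pl ι) (Lat d)

/-- The field `∑_v c_v X_v e_{sm v}`. -/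
noncomputable def fld [Fintype ι] (mo : ι → Lat d) (c : ι × Bool → ℂ) : GA ι d :=
  ∑ v, single (sm mo v) (C (c v) * X v)

lemma prod_single {κ : Type*} (s : Finset κ) (a : κ → Lat d) (r : κ → Pl ι) :
    ∏ l ∈ s, (single (a l) (r l) : GA ι d) = single (∑ l ∈ s, a l) (∏ l ∈ s, r l) := by
  classical
  induction s using Finset.induction_on with
  | empty => simp [AddMonoidAlgebra.one_def]
  | insert x s hx ih => rw [prod_insert hx, ih, AddMonoidAlgebra.single_mul_single, sum_insert hx,
      prod_insert hx]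

lemma prod_fld [Fintype ι] (mo : ι → Lat d) {j : ℕ} (c : Fin j → ι × Bool → ℂ) :
    ∏ l, fld mo (c l) =
      ∑ I : Fin j → ι × Bool, single (mom mo I) (C (∏ l, c l (I l)) * mon I) := by
  classical
  unfold fld
  rw [Finset.prod_univ_sum, Fintype.piFinset_univ]
  refine sum_congr rfl fun I _ => ?_
  rw [prod_single]
  congr 1
  rw [prod_mul_distrib, map_prod]
  rfl

lemma coeff_sum_single {κ : Type*} (s : Finset κ) (a : κ → Lat d) (r : κ → Pl ι) (p : Lat d) :
    (∑ l ∈ s, (single (a l) (r l) : GA ι d)).coeff p = ∑ l ∈ s, if a l = p then r l else 0 := by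
  classical
  rw [show (∑ l ∈ s, (single (a l) (r l) : GA ι d)).coeff p =
    (AddMonoidAlgebra.coeffAddEquiv (∑ l ∈ s, (single (a l) (r l) : GA ι d))) p from rfl, map_sum,
    Finsupp.finsetSum_apply]
  refine sum_congr rfl fun l _ => ?_
  exact Finsupp.single_apply

/-- The coefficient at `0` of a product of fields is in the class `D0`. -/
lemma cls_prod [Fintype ι] (mo : ι → Lat d) {j : ℕ} (c : Fin j → ι × Bool → ℂ) {K : ℝ}
    (hK : ∀ l v, ‖c l v‖ ≤ K) :
    Cls mo D0 j (K ^ j) ((∏ l, fld mo (c l)).coeff 0) := by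
  classical
  refine ⟨fun I => if mom mo I = 0 then ∏ l, c l (I l) else 0, fun I => ?_, fun I hI => if_neg hI, ?_⟩
  · have h0 : ‖∏ l, c l (I l)‖ ≤ K ^ j := by
      rw [norm_prod]
      calc ∏ l, ‖c l (I l)‖ ≤ ∏ _l : Fin j, K :=
            prod_le_prod (fun _ _ => norm_nonneg _) fun l _ => hK l _
        _ = K ^ j := by simp
    dsimp only [D0]
    rw [mul_one]
    split_ifs
    · exact h0
    · rw [norm_zero]
      exact (norm_nonneg _).trans h0
  · rw [prod_fld, coeff_sum_single]
    refine sum_congr rfl fun I _ => ?_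
    dsimp only
    split_ifs
    · rfl
    · rw [map_zero, zero_mul]

/-- `G a b`: the coefficient at `0` of `U ^ a * Us ^ b`. -/
noncomputable def G [Fintype ι] (mo : ι → Lat d) (c cs : ι × Bool → ℂ) (a b : ℕ) : Pl ι :=
  (fld mo c ^ a * fld mo cs ^ b).coeff 0

lemma pow_mul_pow_eq [Fintype ι] (mo : ι → Lat d) (c cs : ι × Bool → ℂ) (a b : ℕ) :
    fld mo c ^ a * fld mo cs ^ b =
      ∏ l : Fin (a + b), fld mo (Fin.addCases (motive := fun _ => ι × Bool → ℂ) (fun _ => c)
        (fun _ => cs) l) := by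
  rw [Fin.prod_univ_add]
  simp

lemma cls_G [Fintype ι] (mo : ι → Lat d) (c cs : ι × Bool → ℂ) (a b : ℕ) {K : ℝ}
    (hc : ∀ v, ‖c v‖ ≤ K) (hcs : ∀ v, ‖cs v‖ ≤ K) :
    Cls mo D0 (a + b) (K ^ (a + b)) (G mo c cs a b) := by
  unfold G
  rw [pow_mul_pow_eq]
  refine cls_prod mo _ fun l v => ?_
  refine Fin.addCases (fun i => ?_) (fun i => ?_) l
  · simpa using hc v
  · simpa using hcs v

lemma mom_append (mo : ι → Lat d) {p q : ℕ} (I : Fin p → ι × Bool) (J : Fin q → ι × Bool) :
    mom mo (Fin.append I J) = mom mo I + mom mo J := by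
  unfold mom
  rw [Fin.sum_univ_add]
  simp

lemma mon_append {p q : ℕ} (I : Fin p → ι × Bool) (J : Fin q → ι × Bool) :
    mon (Fin.append I J) = mon I * mon J := by
  unfold mon
  rw [Fin.prod_univ_add]
  simp

/-- Products of `D0` classes. -/
lemma cls_mul [Fintype ι] (mo : ι → Lat d) {p q : ℕ} {A B : ℝ} {P Q : Pl ι} (hA : 0 ≤ A)
    (hP : Cls mo D0 p A P) (hQ : Cls mo D0 q B Q) : Cls mo D0 (p + q) (A * B) (P * Q) := by
  classical
  obtain ⟨a, ha, ha0, rfl⟩ := hP
  obtain ⟨b, hb, hb0, rfl⟩ := hQ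
  simp only [D0, mul_one] at ha hb
  let e := Fin.appendEquiv (α := ι × Bool) p q
  refine ⟨fun K => a (e.symm K).1 * b (e.symm K).2, fun K => ?_, fun K hK => ?_, ?_⟩
  · dsimp only [D0]
    rw [norm_mul, mul_one]
    exact mul_le_mul (ha _) (hb _) (norm_nonneg _) hA
  · dsimp only
    by_contra h
    apply hK
    have h1 : mom mo (e.symm K).1 = 0 := by
      by_contra h2
      exact h (by rw [ha0 _ h2, zero_mul])
    have h2 : mom mo (e.symm K).2 = 0 := by
      by_contra h3
      exact h (by rw [hb0 _ h3, mul_zero])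
    have h3 : K = Fin.append (e.symm K).1 (e.symm K).2 := (e.apply_symm_apply K).symm
    rw [h3, mom_append, h1, h2, add_zero]
  · rw [Finset.sum_mul_sum, ← Finset.sum_product', univ_product_univ]
    refine Fintype.sum_equiv e _ _ fun x => ?_
    have h1 : e x = Fin.append x.1 x.2 := rfl
    dsimp only
    rw [Equiv.symm_apply_apply, h1, mon_append, map_mul]
    ring

lemma cls_one [Fintype ι] (mo : ι → Lat d) : Cls mo D0 0 1 (1 : Pl ι) := by
  classical
  refine ⟨fun _ => 1, fun _ => by simp [D0], fun I hI => ?_, ?_⟩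
  · exact absurd (by simp [mom]) hI
  · simp [mon]

lemma cls_pow [Fintype ι] (mo : ι → Lat d) {p : ℕ} {A : ℝ} {P : Pl ι} (hA : 0 ≤ A)
    (hP : Cls mo D0 p A P) (l : ℕ) : Cls mo D0 (l * p) (A ^ l) (P ^ l) := by
  induction l with
  | zero => simpa using cls_one mo
  | succ l ih =>
    rw [pow_succ, pow_succ, Nat.succ_mul]
    exact cls_mul mo (pow_nonneg hA l) ih hP

/-! ## Coefficientwise derivative -/

/-- The coefficientwise partial derivative. -/
noncomputable def DvL [DecidableEq ι] (v : ι × Bool) : GA ι d →ₗ[ℂ] GA ι d where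
  toFun := fun f => AddMonoidAlgebra.ofCoeff (f.coeff.mapRange (pderiv v) (map_zero _))
  map_add' := fun f g => by
    ext p
    simp
  map_smul' := fun r f => by
    ext p
    simp

lemma coeff_DvL [DecidableEq ι] (v : ι × Bool) (f : GA ι d) (p : Lat d) :
    (DvL v f).coeff p = pderiv v (f.coeff p) := by
  simp [DvL]

lemma DvL_single [DecidableEq ι] (v : ι × Bool) (a : Lat d) (r : Pl ι) :
    DvL v (single a r : GA ι d) = single a (pderiv v r) := by
  ext p : 2
  rw [coeff_DvL]
  simp only [AddMonoidAlgebra.coeff_single, Finsupp.single_apply]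
  split_ifs <;> simp

lemma DvL_mul [DecidableEq ι] (v : ι × Bool) (f g : GA ι d) :
    DvL v (f * g) = f * DvL v g + g * DvL v f := by
  induction f using AddMonoidAlgebra.induction_linear with
  | zero => simp
  | add f1 f2 h1 h2 => rw [add_mul, map_add, h1, h2, map_add]; ring
  | single a r =>
    induction g using AddMonoidAlgebra.induction_linear with
    | zero => simp
    | add g1 g2 h1 h2 => rw [mul_add, map_add, h1, h2, map_add]; ring
    | single b t =>
      rw [AddMonoidAlgebra.single_mul_single, DvL_single, DvL_single, DvL_single,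
        AddMonoidAlgebra.single_mul_single, AddMonoidAlgebra.single_mul_single, add_comm b a,
        ← AddMonoidAlgebra.single_add, Derivation.leibniz, smul_eq_mul, smul_eq_mul]

/-- The coefficientwise partial derivative as a derivation. -/
noncomputable def Dv [DecidableEq ι] (v : ι × Bool) : Derivation ℂ (GA ι d) (GA ι d) :=
  Derivation.mk' (DvL v) (fun f g => by
    rw [smul_eq_mul, smul_eq_mul]
    exact DvL_mul v f g)

lemma coeff_Dv [DecidableEq ι] (v : ι × Bool) (f : GA ι d) (p : Lat d) :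
    (Dv v f).coeff p = pderiv v (f.coeff p) := coeff_DvL v f p

lemma Dv_single [DecidableEq ι] (v : ι × Bool) (a : Lat d) (r : Pl ι) :
    Dv v (single a r : GA ι d) = single a (pderiv v r) := DvL_single v a r

lemma Dv_fld [Fintype ι] [DecidableEq ι] (mo : ι → Lat d) (c : ι × Bool → ℂ) (v : ι × Bool) :
    Dv v (fld mo c) = single (sm mo v) (C (c v)) := by
  unfold fld
  rw [map_sum, Finset.sum_eq_single v]
  · rw [Dv_single, pderiv_C_mul, pderiv_X_self, mul_one]
  · intro b _ hb
    rw [Dv_single, pderiv_C_mul, pderiv_X_of_ne hb, mul_zero, AddMonoidAlgebra.single_zero]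
  · intro h
    exact absurd (mem_univ v) h

/-! ## Evaluation in the Wiener algebra -/

variable {k : ℕ}

open Vale.Agent.P139.H836.Prb in
/-- Characters of the Wiener algebra. -/
noncomputable def chr : Multiplicative (Lat d) →* WA d k where
  toFun n := sg (Multiplicative.toAdd n) 1
  map_one' := by
    ext n
    rw [coef_sg, coef_one]
    rfl
  map_mul' a b := by
    rw [sg_mul, mul_one]
    rfl

/-- Evaluation of a trigonometric polynomial with polynomial coefficients at `y`. -/
noncomputable def Ev (y : ι × Bool → ℂ) : GA ι d →+* WA d k :=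
  AddMonoidAlgebra.liftNCRingHom ((algebraMap ℂ (WA d k)).comp (eval y : Pl ι →+* ℂ)) chr
    (fun _ _ => Commute.all _ _)

open Vale.Agent.P139.H836.Prb in
lemma Ev_single (y : ι × Bool → ℂ) (a : Lat d) (r : Pl ι) :
    (Ev y (single a r) : WA d k) = sg a (eval y r) := by
  unfold Ev
  rw [AddMonoidAlgebra.liftNCRingHom_single]
  ext n
  rw [RingHom.comp_apply, Algebra.algebraMap_eq_smul_one, smul_mul_assoc, one_mul, coef_smul]
  change _ * coef (sg a 1 : WA d k) n = _
  rw [coef_sg, coef_sg]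
  split_ifs <;> simp

open Vale.Agent.P139.H836.Prb in
lemma coef_Ev (y : ι × Bool → ℂ) (f : GA ι d) (p : Lat d) :
    coef (Ev y f : WA d k) p = eval y (f.coeff p) := by
  induction f using AddMonoidAlgebra.induction_linear with
  | zero => simp
  | add f1 f2 h1 h2 => rw [map_add, coef_add, h1, h2]; simp
  | single a r =>
    rw [Ev_single, coef_sg]
    simp only [AddMonoidAlgebra.coeff_single, Finsupp.single_apply]
    by_cases h : p = a
    · rw [if_pos h, if_pos h.symm]
    · rw [if_neg h, if_neg (Ne.symm h), map_zero]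

/-- Evaluation of `G a b`. -/
lemma eval_G [Fintype ι] (mo : ι → Lat d) (c cs : ι × Bool → ℂ) (a b : ℕ) (y : ι × Bool → ℂ) :
    eval y (G mo c cs a b) =
      coef ((Ev y (fld mo c) : WA d k) ^ a * (Ev y (fld mo cs)) ^ b) 0 := by
  unfold G
  rw [← coef_Ev (k := k), map_mul, map_pow, map_pow]

open Vale.Agent.P139.H836.Prb in
lemma coef_mul_sg (f : WA d k) (a : Lat d) (ξ : ℂ) (p : Lat d) :
    coef (f * sg a ξ) p = coef f (p - a) * ξ := by
  rw [mul_comm, coef_mul, tsum_eq_single a (fun m hm => by rw [coef_sg, if_neg hm, zero_mul]),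
    coef_sg, if_pos rfl, mul_comm]

/-- Evaluation of the derivatives of `G a b`. -/
lemma eval_pderiv_G [Fintype ι] [DecidableEq ι] (mo : ι → Lat d) (c cs : ι × Bool → ℂ) (a b : ℕ)
    (y : ι × Bool → ℂ) (v : ι × Bool) :
    eval y (pderiv v (G mo c cs a b)) =
      a * c v * coef ((Ev y (fld mo c) : WA d k) ^ (a - 1) * (Ev y (fld mo cs)) ^ b) (-sm mo v) +
      b * cs v * coef ((Ev y (fld mo c) : WA d k) ^ a * (Ev y (fld mo cs)) ^ (b - 1))
        (-sm mo v) := by
  unfold G
  rw [← coeff_Dv, ← coef_Ev (k := k), Derivation.leibniz, Derivation.leibniz_pow,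
    Derivation.leibniz_pow, Dv_fld, Dv_fld]
  simp only [smul_eq_mul, nsmul_eq_mul, map_add, map_mul, map_pow, map_natCast, Ev_single, eval_C,
    coef_add]
  have h1 : ∀ (f : WA d k) (r : ℕ), coef ((r : WA d k) * f) 0 = r * coef f 0 := fun f r => by
    rw [← nsmul_eq_mul, ← Nat.cast_smul_eq_nsmul ℂ, coef_smul]
  rw [show (Ev y (fld mo c) : WA d k) ^ a * (↑b * (Ev y (fld mo cs) ^ (b - 1) *
      H836.Prb.sg (sm mo v) (cs v))) = (b : WA d k) * ((Ev y (fld mo c) ^ a *
      Ev y (fld mo cs) ^ (b - 1)) * H836.Prb.sg (sm mo v) (cs v)) by ring,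
    show (Ev y (fld mo cs) : WA d k) ^ b * (↑a * (Ev y (fld mo c) ^ (a - 1) *
      H836.Prb.sg (sm mo v) (c v))) = (a : WA d k) * ((Ev y (fld mo c) ^ (a - 1) *
      Ev y (fld mo cs) ^ b) * H836.Prb.sg (sm mo v) (c v)) by ring]
  rw [h1, h1, coef_mul_sg, coef_mul_sg, zero_sub]
  ring

end Vale.Agent.P139.BN.R7
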