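import Vale.Agent.P139.R2.H556.Ham
import Vale.Agent.P139.R2.H556.Bogo

/-!
# P139, row R7: the quadratic part
-/

set_option autoImplicit false

open MvPolynomial Finset
open scoped ComplexConjugate

namespace Vale.Agent.P139.BN.R7

open Vale.Agent.P139.A Vale.Agent.P139.A.WA
open AddMonoidAlgebra (single)

variable {d : ℕ} {B : Finset (Lat d)} (hB : ∀ n ∈ B, -n ∈ B) (μ : ℝ)

/-- Negation of a mode. -/
def ng (n : {n // n ∈ B}) : {n // n ∈ B} := ⟨-n.1, hB n.1 n.2⟩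

lemma ng_ng (n : {n // n ∈ B}) : ng hB (ng hB n) = n := by
  unfold ng
  ext1
  simp

/-- Negation as an equivalence. -/
def ngE : {n // n ∈ B} ≃ {n // n ∈ B} := ⟨ng hB, ng hB, ng_ng hB, ng_ng hB⟩

lemma sum_ng {M : Type*} [AddCommMonoid M] (f : {n // n ∈ B} → M) : ∑ n, f (ng hB n) = ∑ n, f n :=
  (ngE hB).sum_comp f

/-- Coefficients of the field. -/
noncomputable def cc (v : {n // n ∈ B} × Bool) : ℂ := if v.2 then (bA μ v.1.1 : ℂ) else (bB μ v.1.1 : ℂ)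

/-- Coefficients of the conjugate field. -/
noncomputable def cs (v : {n // n ∈ B} × Bool) : ℂ := if v.2 then (bB μ v.1.1 : ℂ) else (bA μ v.1.1 : ℂ)

/-- The mode `V_n`. -/
noncomputable def Vn (n : {n // n ∈ B}) : Pl {n // n ∈ B} :=
  C (bA μ n.1 : ℂ) * X (n, true) + C (bB μ n.1 : ℂ) * X (ng hB n, false)

/-- The mode `\bar V_n`. -/
noncomputable def Wn (n : {n // n ∈ B}) : Pl {n // n ∈ B} :=
  C (bA μ n.1 : ℂ) * X (n, false) + C (bB μ n.1 : ℂ) * X (ng hB n, true)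

/-- The momenta. -/
abbrev mv (B : Finset (Lat d)) : {n // n ∈ B} → Lat d := Subtype.val

lemma sum_prod_bool {M : Type*} [AddCommMonoid M] {κ : Type*} [Fintype κ] (f : κ × Bool → M) :
    ∑ v, f v = ∑ n, (f (n, true) + f (n, false)) := by
  rw [Fintype.sum_prod_type]
  refine sum_congr rfl fun n _ => ?_
  rw [Fintype.sum_bool]

lemma fld_cc : fld (mv B) (cc μ) = ∑ n, single n.1 (Vn hB μ n) := by
  unfold fld
  rw [sum_prod_bool, sum_add_distrib]
  have h1 : ∑ n : {n // n ∈ B}, (single (sm (mv B) (n, false)) (C (cc μ (n, false)) *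
      X (n, false)) : GA {n // n ∈ B} d) =
      ∑ n : {n // n ∈ B}, single n.1 (C (bB μ n.1 : ℂ) * X (ng hB n, false)) := by
    rw [← sum_ng hB]
    refine sum_congr rfl fun n _ => ?_
    simp [sm, ng, cc, bB_neg, mv]
  rw [h1, ← sum_add_distrib]
  refine sum_congr rfl fun n _ => ?_
  unfold Vn
  rw [AddMonoidAlgebra.single_add]
  simp [sm, cc]

lemma fld_cs : fld (mv B) (cs μ) = ∑ n, single (-n.1) (Wn hB μ n) := by
  unfold fld
  rw [sum_prod_bool, sum_add_distrib]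
  have h1 : ∑ n : {n // n ∈ B}, (single (sm (mv B) (n, true)) (C (cs μ (n, true)) *
      X (n, true)) : GA {n // n ∈ B} d) =
      ∑ n : {n // n ∈ B}, single (-n.1) (C (bB μ n.1 : ℂ) * X (ng hB n, true)) := by
    rw [← sum_ng hB]
    refine sum_congr rfl fun n _ => ?_
    simp [sm, ng, cs, bB_neg, mv]
  rw [h1, ← sum_add_distrib]
  refine sum_congr rfl fun n _ => ?_
  unfold Wn
  rw [AddMonoidAlgebra.single_add, add_comm]
  simp [sm, cs]

lemma coeff_sum_mul_sum (f g : {n // n ∈ B} → Pl {n // n ∈ B}) (a b : {n // n ∈ B} → Lat d)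
    (e : {n // n ∈ B} → {n // n ∈ B}) (h : ∀ n n', a n + b n' = 0 ↔ n' = e n) :
    ((∑ n, (single (a n) (f n) : GA {n // n ∈ B} d)) * ∑ n, single (b n) (g n)).coeff 0 =
      ∑ n, f n * g (e n) := by
  rw [Finset.sum_mul_sum]
  simp_rw [AddMonoidAlgebra.single_mul_single]
  rw [← Finset.sum_product', coeff_sum_single, Finset.sum_product]
  refine sum_congr rfl fun n _ => ?_
  rw [Finset.sum_eq_single (e n)]
  · rw [if_pos ((h n (e n)).2 rfl)]
  · intro n' _ hn'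
    rw [if_neg fun h' => hn' ((h n n').1 h')]
  · intro h'
    exact absurd (mem_univ _) h'

lemma G_one_one : G (mv B) (cc μ) (cs μ) 1 1 = ∑ n, Vn hB μ n * Wn hB μ n := by
  unfold G
  rw [pow_one, pow_one, fld_cc hB, fld_cs hB]
  refine coeff_sum_mul_sum _ _ _ _ id fun n n' => ?_
  rw [add_neg_eq_zero, id]
  exact ⟨fun h => Subtype.ext h.symm, fun h => by rw [h]⟩

lemma G_two_zero : G (mv B) (cc μ) (cs μ) 2 0 = ∑ n, Vn hB μ n * Vn hB μ (ng hB n) := by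
  unfold G
  rw [pow_two, pow_zero, mul_one, fld_cc hB]
  refine coeff_sum_mul_sum _ _ _ _ (ng hB) fun n n' => ?_
  constructor
  · intro h
    exact Subtype.ext (neg_eq_of_add_eq_zero_right h).symm
  · rintro rfl
    simp [ng]

lemma G_zero_two : G (mv B) (cc μ) (cs μ) 0 2 = ∑ n, Wn hB μ n * Wn hB μ (ng hB n) := by
  unfold G
  rw [pow_two, pow_zero, one_mul, fld_cs hB]
  refine coeff_sum_mul_sum _ _ _ _ (ng hB) fun n n' => ?_
  constructor
  · intro h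
    refine Subtype.ext ?_
    have h1 := neg_eq_of_add_eq_zero_right h
    simp only [ng]
    rw [neg_neg] at h1
    rw [h1, neg_neg]
  · rintro rfl
    simp [ng]

/-- The kinetic part. -/
noncomputable def kin : Pl {n // n ∈ B} := ∑ n : {n // n ∈ B}, C (sqNorm n.1 : ℂ) * (Vn hB μ n * Wn hB μ n)

lemma bog_ring {R : Type*} [CommRing R] (s mu a b h x1 x2 x3 x4 : R) (h2 : h * 2 = 1)
    (h3 : (s + mu) * (a * b) + mu * h * (a ^ 2 + b ^ 2) = 0) :
    s * ((a * x1 + b * x4) * (a * x2 + b * x3)) + (mu * ((a * x1 + b * x4) * (a * x2 + b * x3)) +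
      h * mu * ((a * x1 + b * x4) * (a * x3 + b * x2) + (a * x2 + b * x3) * (a * x4 + b * x1))) =
    ((s + mu) * a ^ 2 + mu * (a * b)) * (x1 * x2) +
      ((s + mu) * b ^ 2 + mu * (a * b)) * (x3 * x4) := by
  linear_combination (x1 * x3 + x2 * x4) * h3 + mu * a * b * (x1 * x2 + x3 * x4) * h2

/-- The quadratic part is diagonal. -/
theorem quad_diag (hμ : 0 ≤ μ) (h0 : (0 : Lat d) ∉ B) :
    kin hB μ + (C (μ : ℂ) * G (mv B) (cc μ) (cs μ) 1 1 +
      C ((μ : ℂ) / 2) * (G (mv B) (cc μ) (cs μ) 2 0 + G (mv B) (cc μ) (cs μ) 0 2)) =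
      quad (fun n : {n // n ∈ B} => Om μ n.1) := by
  rw [G_one_one hB, G_two_zero hB, G_zero_two hB]
  unfold kin quad
  rw [← sum_add_distrib, mul_sum, mul_sum, ← sum_add_distrib, ← sum_add_distrib]
  have h1 : ∀ n : {n // n ∈ B}, (C (sqNorm n.1 : ℂ) * (Vn hB μ n * Wn hB μ n) +
      (C (μ : ℂ) * (Vn hB μ n * Wn hB μ n) + C ((μ : ℂ) / 2) *
        (Vn hB μ n * Vn hB μ (ng hB n) + Wn hB μ n * Wn hB μ (ng hB n))) : Pl {n // n ∈ B}) =
      C (((sqNorm n.1 + μ) * bA μ n.1 ^ 2 + μ * (bA μ n.1 * bB μ n.1) : ℝ) : ℂ) *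
        (X (n, true) * X (n, false)) +
      C (((sqNorm n.1 + μ) * bB μ n.1 ^ 2 + μ * (bA μ n.1 * bB μ n.1) : ℝ) : ℂ) *
        (X (ng hB n, true) * X (ng hB n, false)) := by
    intro n
    have hn : n.1 ≠ 0 := fun h => h0 (h ▸ n.2)
    have h2 := bog_off hμ hn
    have h3 : (C (((sqNorm n.1 + μ) * (bA μ n.1 * bB μ n.1) +
        μ / 2 * (bA μ n.1 ^ 2 + bB μ n.1 ^ 2) : ℝ) : ℂ) : Pl {n // n ∈ B}) = 0 := by
      rw [h2]
      simp
    have e1 : ng hB (ng hB n) = n := ng_ng hB n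
    unfold Vn Wn
    rw [e1]
    have e2 : bA μ (ng hB n).1 = bA μ n.1 := bA_neg μ n.1
    have e3 : bB μ (ng hB n).1 = bB μ n.1 := bB_neg μ n.1
    rw [e2, e3]
    have h4 : (C ((μ : ℂ) / 2) : Pl {n // n ∈ B}) = C (1 / 2 : ℂ) * C (μ : ℂ) := by
      rw [← map_mul]
      congr 1
      ring
    have h5 : (C (1 / 2 : ℂ) : Pl {n // n ∈ B}) * 2 = 1 := by
      have h6 : (2 : Pl {n // n ∈ B}) = C (2 : ℂ) := (map_ofNat C 2).symm
      rw [h6, ← map_mul]
      norm_num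
    have h7 : ((C (sqNorm n.1 : ℂ) + C (μ : ℂ)) * (C (bA μ n.1 : ℂ) * C (bB μ n.1 : ℂ)) +
        C (μ : ℂ) * C (1 / 2 : ℂ) * (C (bA μ n.1 : ℂ) ^ 2 + C (bB μ n.1 : ℂ) ^ 2) :
          Pl {n // n ∈ B}) = 0 := by
      rw [← h3]
      simp only [← map_add, ← map_mul, ← map_pow]
      congr 1
      push_cast
      ring
    rw [h4, bog_ring _ _ _ _ _ _ _ _ _ h5 h7]
    simp only [← map_add, ← map_mul, ← map_pow]
    push_cast
    rfl
  rw [sum_congr rfl fun n _ => h1 n, sum_add_distrib]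
  have h8 : ∑ n : {n // n ∈ B}, (C (((sqNorm n.1 + μ) * bB μ n.1 ^ 2 +
      μ * (bA μ n.1 * bB μ n.1) : ℝ) : ℂ) * (X (ng hB n, true) * X (ng hB n, false)) :
        Pl {n // n ∈ B}) = ∑ n : {n // n ∈ B}, C (((sqNorm n.1 + μ) * bB μ n.1 ^ 2 +
      μ * (bA μ n.1 * bB μ n.1) : ℝ) : ℂ) * (X (n, true) * X (n, false)) := by
    rw [← sum_ng hB (fun n : {n // n ∈ B} => (C (((sqNorm n.1 + μ) * bB μ n.1 ^ 2 +
      μ * (bA μ n.1 * bB μ n.1) : ℝ) : ℂ) * (X (n, true) * X (n, false)) : Pl {n // n ∈ B}))]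
    refine sum_congr rfl fun n _ => ?_
    have e1 : sqNorm (ng hB n).1 = sqNorm n.1 := sqNorm_neg n.1
    have e2 : bA μ (ng hB n).1 = bA μ n.1 := bA_neg μ n.1
    have e3 : bB μ (ng hB n).1 = bB μ n.1 := bB_neg μ n.1
    rw [e1, e2, e3]
  rw [h8, ← sum_add_distrib]
  refine sum_congr rfl fun n _ => ?_
  have hn : n.1 ≠ 0 := fun h => h0 (h ▸ n.2)
  rw [← add_mul, ← map_add]
  congr 2
  rw [← Complex.ofReal_add]
  congr 1
  dsimp only
  rw [← bog_diag hμ hn]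
  ring

/-- The component of degree two. -/
theorem Hh_zero {m Lt : ℕ} (hm : 1 ≤ m) (hL : 1 ≤ Lt) {τ : ℕ → ℕ → ℝ} (hμ : 0 ≤ μ)
    (h0 : (0 : Lat d) ∉ B) (h1 : m * τ (2 * m) 0 = μ) (h2 : τ (2 * m + 2) 1 = -((m + 1) * τ (2 * m) 0)) :
    Hh (mv B) (cc μ) (cs μ) m Lt τ (kin hB μ) 0 = quad (fun n : {n // n ∈ B} => Om μ n.1) := by
  rw [← quad_diag hB μ hμ h0]
  unfold Hh
  rw [if_pos rfl]
  congr 1
  have h3 : ((idx m Lt).filter fun x => x.1 + x.2.1 + 2 * x.2.2 = 0 + 2) =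
      {(0, 0, 1), (2, 0, 0), (1, 1, 0), (0, 2, 0)} := by
    ext ⟨a, b, l⟩
    simp only [mem_filter, mem_idx, mem_insert, mem_singleton, Prod.mk.injEq]
    omega
  rw [h3, sum_insert (by simp), sum_insert (by simp), sum_insert (by simp), sum_singleton]
  unfold tm co
  dsimp only
  simp only [G_zero_zero, pow_one, pow_zero, one_mul, mul_one, Nat.choose_zero_right, Nat.choose_one_right]
  have h4 : (((m + 1).choose 2 : ℕ) : ℝ) = (m + 1) * m / 2 := by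
    rw [Nat.cast_choose_two]
    push_cast
    ring
  have h5 : (m : ℝ) + 1 ≠ 0 := by positivity
  have e1 : 2 * m + 2 - 0 - 0 = 2 * m + 2 := by omega
  have e2 : 2 * m + 2 - 2 - 0 = 2 * m := by omega
  have e3 : 2 * m + 2 - 1 - 1 = 2 * m := by omega
  have e4 : 2 * m + 2 - 0 - 2 = 2 * m := by omega
  rw [e1, e2, e3, e4, h4, h2]
  have c1 : ((1 : ℕ) : ℝ) * ((1 : ℕ) : ℝ) / (m + 1) * -((m + 1) * τ (2 * m) 0) = - τ (2 * m) 0 := by
    field_simp
    simp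
  have c2 : (((m : ℝ) + 1) * m / 2) * ((1 : ℕ) : ℝ) / (m + 1) * τ (2 * m) 0 = μ / 2 := by
    rw [← h1]
    field_simp
    simp
  have c3 : (((m + 1 : ℕ)) : ℝ) * (((m + 1 : ℕ)) : ℝ) / (m + 1) * τ (2 * m) 0 =
      τ (2 * m) 0 + μ := by
    rw [← h1]
    push_cast
    field_simp
    ring
  have c4 : ((1 : ℕ) : ℝ) * (((m : ℝ) + 1) * m / 2) / (m + 1) * τ (2 * m) 0 = μ / 2 := by
    rw [← h1]
    field_simp
    simp
  rw [c1, c2, c3, c4]
  push_cast
  simp only [map_neg, map_add]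
  ring

end Vale.Agent.P139.BN.R7
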