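import Vale.Agent.P139.R2.H556.Ham2

/-!
# P139, row R7/R8: the gradient of the Hamiltonian is the right side of the equation
-/

set_option autoImplicit false

open MvPolynomial Finset
open scoped ComplexConjugate

namespace Vale.Agent.P139.BN.R7

open Vale.Agent.P139.A Vale.Agent.P139.A.WA
open AddMonoidAlgebra (single)

section Newton

variable {A : Type*} [CommRing A] [Algebra ℂ A]

lemma newton2 (m : ℕ) (b : ℂ) (x : A) :
    ∑ a ∈ range (m + 2), (((m + 1).choose a : ℂ) * b ^ (m + 1 - a)) • x ^ a =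
      (algebraMap ℂ A b + x) ^ (m + 1) := by
  rw [add_comm (algebraMap ℂ A b) x, add_pow]
  refine sum_congr rfl fun a _ => ?_
  rw [Algebra.smul_def, map_mul, map_pow, map_natCast]
  ring

lemma newton1 (m : ℕ) (b : ℂ) (x : A) :
    ∑ a ∈ range (m + 2), (((m + 1).choose a : ℂ) * a / (m + 1) * b ^ (m + 1 - a)) • x ^ (a - 1) =
      (algebraMap ℂ A b + x) ^ m := by
  rw [add_comm (algebraMap ℂ A b) x, add_pow, show m + 2 = (m + 1) + 1 from rfl,
    sum_range_succ' _ (m + 1)]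
  have h0 : ((((m + 1).choose 0 : ℕ) : ℂ) * ((0 : ℕ) : ℂ) / (m + 1) * b ^ (m + 1 - 0)) •
      x ^ (0 - 1) = 0 := by simp
  rw [h0, add_zero]
  refine sum_congr rfl fun a _ => ?_
  have h1 : (((m + 1).choose (a + 1) : ℕ) : ℂ) * ((a + 1 : ℕ) : ℂ) / (m + 1) =
      ((m.choose a : ℕ) : ℂ) := by
    have h2 : ((m : ℂ) + 1) ≠ 0 := by exact_mod_cast Nat.succ_ne_zero m
    rw [div_eq_iff h2]
    have h3 := Nat.add_one_mul_choose_eq m a
    have h4 : (((m + 1) * m.choose a : ℕ) : ℂ) = (((m + 1).choose (a + 1) * (a + 1) : ℕ) : ℂ) := by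
      exact_mod_cast congrArg (fun n : ℕ => (n : ℂ)) h3
    push_cast at h4 ⊢
    rw [← h4]
    ring
  rw [h1, Nat.add_sub_cancel, Nat.add_sub_add_right, Algebra.smul_def, map_mul, map_pow,
    map_natCast]
  ring

lemma newton3 (m : ℕ) (b : ℂ) (x : A) :
    ∑ a ∈ range (m + 2), (((m + 1).choose a : ℂ) * ((m + 1 - a : ℕ) : ℂ) / (m + 1) *
      b ^ (m + 1 - a)) • x ^ a = b • (algebraMap ℂ A b + x) ^ m := by
  rw [show m + 2 = (m + 1) + 1 from rfl, sum_range_succ _ (m + 1)]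
  have h0 : ((((m + 1).choose (m + 1) : ℕ) : ℂ) * ((m + 1 - (m + 1) : ℕ) : ℂ) / (m + 1) *
      b ^ (m + 1 - (m + 1))) • x ^ (m + 1) = 0 := by simp
  rw [h0, add_zero, add_comm (algebraMap ℂ A b) x, add_pow, smul_sum]
  refine sum_congr rfl fun a ha => ?_
  rw [mem_range] at ha
  have h1 : (((m + 1).choose a : ℕ) : ℂ) * ((m + 1 - a : ℕ) : ℂ) / (m + 1) =
      ((m.choose a : ℕ) : ℂ) := by
    have h2 : ((m : ℂ) + 1) ≠ 0 := by exact_mod_cast Nat.succ_ne_zero m
    rw [div_eq_iff h2]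
    have h3 : (m + 1).choose a * (m + 1 - a) = m.choose a * (m + 1) := by
      have := Nat.choose_mul_succ_eq m a
      linarith
    exact_mod_cast h3
  rw [h1, show m + 1 - a = (m - a) + 1 by omega, pow_succ, Algebra.smul_def, Algebra.smul_def,
    map_mul, map_mul, map_pow, map_natCast]
  ring

end Newton

section Wiener

variable {d k : ℕ}

lemma coef_sum {κ : Type*} (s : Finset κ) (f : κ → WA d k) (n : Lat d) :
    coef (∑ x ∈ s, f x) n = ∑ x ∈ s, coef (f x) n := by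
  have h := map_sum (coefL (d := d) (k := k) n) f s
  exact h

lemma coef_double {s t : Finset ℕ} (c e : ℕ → ℂ) (f g : ℕ → WA d k) (n : Lat d) :
    ∑ a ∈ s, ∑ b ∈ t, c a * e b * coef (f a * g b) n =
      coef ((∑ a ∈ s, c a • f a) * ∑ b ∈ t, e b • g b) n := by
  rw [sum_mul_sum, coef_sum]
  refine sum_congr rfl fun a _ => ?_
  rw [coef_sum]
  refine sum_congr rfl fun b _ => ?_
  rw [smul_mul_smul_comm, coef_smul]

lemma algebraMap_eq_cst (b : ℝ) : algebraMap ℂ (WA d k) (b : ℂ) = cst b := by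
  rw [Algebra.algebraMap_eq_smul_one]
  rfl

variable (m : ℕ) (b : ℝ) (w v : WA d k) (n : Lat d)

lemma sumA : ∑ a ∈ range (m + 2), ∑ a' ∈ range (m + 2), (cf m a a' : ℂ) *
    ((b : ℂ) ^ (2 * m + 2 - a - a') * (a * coef (w ^ (a - 1) * v ^ a') n)) =
      coef ((cst b + w) ^ m * (cst b + v) ^ (m + 1)) n := by
  rw [← algebraMap_eq_cst, ← newton1, ← newton2, ← coef_double]
  refine sum_congr rfl fun a ha => sum_congr rfl fun a' ha' => ?_
  rw [mem_range] at ha ha'
  rw [show 2 * m + 2 - a - a' = (m + 1 - a) + (m + 1 - a') by omega, pow_add]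
  unfold cf
  push_cast
  ring

lemma sumB : ∑ a ∈ range (m + 2), ∑ a' ∈ range (m + 2), (cf m a a' : ℂ) *
    ((b : ℂ) ^ (2 * m + 2 - a - a') * (a' * coef (w ^ a * v ^ (a' - 1)) n)) =
      coef ((cst b + w) ^ (m + 1) * (cst b + v) ^ m) n := by
  rw [← algebraMap_eq_cst, ← newton1 m (b : ℂ) v, ← newton2 m (b : ℂ) w, ← coef_double]
  refine sum_congr rfl fun a ha => sum_congr rfl fun a' ha' => ?_
  rw [mem_range] at ha ha'
  rw [show 2 * m + 2 - a - a' = (m + 1 - a) + (m + 1 - a') by omega, pow_add]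
  unfold cf
  push_cast
  ring

lemma sumC : ∑ a ∈ range (m + 2), ∑ a' ∈ range (m + 2), (cf m a a' : ℂ) *
    (((2 * m + 2 - a - a' : ℕ) : ℂ) * (b : ℂ) ^ (2 * m + 2 - a - a') * coef (w ^ a * v ^ a') n) =
      b * (coef ((cst b + w) ^ m * (cst b + v) ^ (m + 1)) n +
        coef ((cst b + w) ^ (m + 1) * (cst b + v) ^ m) n) := by
  have h1 : (b : ℂ) * coef ((cst b + w) ^ m * (cst b + v) ^ (m + 1)) n =
      coef (((b : ℂ) • (algebraMap ℂ (WA d k) (b : ℂ) + w) ^ m) *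
        (algebraMap ℂ (WA d k) (b : ℂ) + v) ^ (m + 1)) n := by
    rw [smul_mul_assoc, coef_smul, algebraMap_eq_cst]
  have h2 : (b : ℂ) * coef ((cst b + w) ^ (m + 1) * (cst b + v) ^ m) n =
      coef ((algebraMap ℂ (WA d k) (b : ℂ) + w) ^ (m + 1) *
        ((b : ℂ) • (algebraMap ℂ (WA d k) (b : ℂ) + v) ^ m)) n := by
    rw [mul_smul_comm, coef_smul, algebraMap_eq_cst]
  rw [mul_add, h1, h2, ← newton3 m (b : ℂ) w, ← newton3 m (b : ℂ) v, ← newton2 m (b : ℂ) w,
    ← newton2 m (b : ℂ) v, ← coef_double, ← coef_double, ← sum_add_distrib]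
  refine sum_congr rfl fun a ha => ?_
  rw [← sum_add_distrib]
  refine sum_congr rfl fun a' ha' => ?_
  rw [mem_range] at ha ha'
  rw [show 2 * m + 2 - a - a' = (m + 1 - a) + (m + 1 - a') by omega, pow_add]
  unfold cf
  push_cast
  ring

end Wiener

section Grad

variable {d k : ℕ} {B : Finset (Lat d)} (hB : ∀ n ∈ B, -n ∈ B) (μ : ℝ)

lemma coeff_fld_cc (n : {n // n ∈ B}) : (fld (mv B) (cc μ)).coeff n.1 = Vn hB μ n := by
  rw [fld_cc hB, coeff_sum_single, Finset.sum_eq_single n]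
  · rw [if_pos rfl]
  · intro n' _ hn'
    rw [if_neg fun h => hn' (Subtype.ext h)]
  · intro h
    exact absurd (mem_univ n) h

lemma coeff_fld_cs (n : {n // n ∈ B}) : (fld (mv B) (cs μ)).coeff (-n.1) = Wn hB μ n := by
  rw [fld_cs hB, coeff_sum_single, Finset.sum_eq_single n]
  · rw [if_pos rfl]
  · intro n' _ hn'
    rw [if_neg fun h => hn' (Subtype.ext (neg_injective h))]
  · intro h
    exact absurd (mem_univ n) h

variable {μ} {y : {n // n ∈ B} × Bool → ℂ} {w v : WA d k}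

lemma eval_Vn (hw : Ev y (fld (mv B) (cc μ)) = w) (n : {n // n ∈ B}) :
    eval y (Vn hB μ n) = coef w n.1 := by
  rw [← hw, coef_Ev, coeff_fld_cc hB]

lemma eval_Wn (hv : Ev y (fld (mv B) (cs μ)) = v) (n : {n // n ∈ B}) :
    eval y (Wn hB μ n) = coef v (-n.1) := by
  rw [← hv, coef_Ev, coeff_fld_cs hB]

lemma ng_eq_iff (a b : {n // n ∈ B}) : ng hB a = b ↔ a = ng hB b := by
  constructor
  · rintro rfl
    rw [ng_ng]
  · rintro rfl
    rw [ng_ng]

lemma pderiv_Vn_false (n a : {n // n ∈ B}) : pderiv (n, false) (Vn hB μ a) =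
    if a = ng hB n then C (bB μ a.1 : ℂ) else 0 := by
  unfold Vn
  rw [map_add, pderiv_C_mul, pderiv_C_mul, pderiv_X_of_ne (by simp), mul_zero, zero_add, pderiv_X,
    Pi.single_apply]
  by_cases h : a = ng hB n
  · have h1 : ng hB a = n := (ng_eq_iff hB a n).2 h
    rw [if_pos h, if_pos (by rw [h1]), mul_one]
  · have h1 : ng hB a ≠ n := fun h' => h ((ng_eq_iff hB a n).1 h')
    rw [if_neg h, if_neg (by simpa using h1), mul_zero]

lemma pderiv_Wn_false (n a : {n // n ∈ B}) : pderiv (n, false) (Wn hB μ a) =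
    if a = n then C (bA μ a.1 : ℂ) else 0 := by
  unfold Wn
  rw [map_add, pderiv_C_mul, pderiv_C_mul, pderiv_X_of_ne (show ((ng hB a, true) : {n // n ∈ B} × Bool) ≠ (n, false) by simp), mul_zero,
    add_zero, pderiv_X, Pi.single_apply]
  by_cases h : a = n
  · rw [if_pos h, if_pos (by rw [h]), mul_one]
  · rw [if_neg h, if_neg (by simpa using h), mul_zero]

lemma pderiv_Vn_true (n a : {n // n ∈ B}) : pderiv (n, true) (Vn hB μ a) =
    if a = n then C (bA μ a.1 : ℂ) else 0 := by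
  unfold Vn
  rw [map_add, pderiv_C_mul, pderiv_C_mul, pderiv_X_of_ne (show ((ng hB a, false) : {n // n ∈ B} × Bool) ≠ (n, true) by simp), mul_zero,
    add_zero, pderiv_X, Pi.single_apply]
  by_cases h : a = n
  · rw [if_pos h, if_pos (by rw [h]), mul_one]
  · rw [if_neg h, if_neg (by simpa using h), mul_zero]

lemma pderiv_Wn_true (n a : {n // n ∈ B}) : pderiv (n, true) (Wn hB μ a) =
    if a = ng hB n then C (bB μ a.1 : ℂ) else 0 := by
  unfold Wn
  rw [map_add, pderiv_C_mul, pderiv_C_mul, pderiv_X_of_ne (by simp), mul_zero, zero_add, pderiv_X,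
    Pi.single_apply]
  by_cases h : a = ng hB n
  · have h1 : ng hB a = n := (ng_eq_iff hB a n).2 h
    rw [if_pos h, if_pos (by rw [h1]), mul_one]
  · have h1 : ng hB a ≠ n := fun h' => h ((ng_eq_iff hB a n).1 h')
    rw [if_neg h, if_neg (by simpa using h1), mul_zero]

lemma eval_pderiv_kin_false (hw : Ev y (fld (mv B) (cc μ)) = w)
    (hv : Ev y (fld (mv B) (cs μ)) = v) (n : {n // n ∈ B}) :
    eval y (pderiv (n, false) (kin hB μ)) =
      sqNorm n.1 * (bA μ n.1 * coef w n.1 + bB μ n.1 * coef v n.1) := by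
  unfold kin
  rw [map_sum, map_sum]
  simp_rw [pderiv_C_mul, Derivation.leibniz, pderiv_Vn_false, pderiv_Wn_false, smul_eq_mul]
  simp only [map_mul, map_add, eval_C, mul_ite, mul_zero, apply_ite (eval y), map_zero, mul_add,
    sum_add_distrib, sum_ite_eq', mem_univ, if_true]
  rw [eval_Vn hB hw, eval_Wn hB hv]
  have e1 : sqNorm (ng hB n).1 = sqNorm n.1 := sqNorm_neg n.1
  have e3 : bB μ (ng hB n).1 = bB μ n.1 := bB_neg μ n.1
  have e4 : -(ng hB n).1 = n.1 := neg_neg n.1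
  rw [e1, e3, e4]
  ring

lemma eval_pderiv_kin_true (hw : Ev y (fld (mv B) (cc μ)) = w)
    (hv : Ev y (fld (mv B) (cs μ)) = v) (n : {n // n ∈ B}) :
    eval y (pderiv (n, true) (kin hB μ)) =
      sqNorm n.1 * (bA μ n.1 * coef v (-n.1) + bB μ n.1 * coef w (-n.1)) := by
  unfold kin
  rw [map_sum, map_sum]
  simp_rw [pderiv_C_mul, Derivation.leibniz, pderiv_Vn_true, pderiv_Wn_true, smul_eq_mul]
  simp only [map_mul, map_add, eval_C, mul_ite, mul_zero, apply_ite (eval y), map_zero, mul_add,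
    sum_add_distrib, sum_ite_eq', mem_univ, if_true]
  rw [eval_Vn hB hw, eval_Wn hB hv]
  have e1 : sqNorm (ng hB n).1 = sqNorm n.1 := sqNorm_neg n.1
  have e3 : bB μ (ng hB n).1 = bB μ n.1 := bB_neg μ n.1
  have e4 : (ng hB n).1 = -n.1 := rfl
  rw [e1, e3, e4]
  ring

lemma conj_coef_mul {w v : WA d k} (hc : conjL w = v) (a b : ℕ) (p : Lat d) :
    conj (coef (w ^ a * v ^ b) p) = coef (w ^ b * v ^ a) (-p) := by
  have h1 : conjL v = w := by rw [← hc, H836.conjL_conjL]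
  have h2 : conjL (w ^ a * v ^ b) = w ^ b * v ^ a := by
    rw [H836.conjL_mul, H836.conjL_pow, H836.conjL_pow, hc, h1, mul_comm]
  rw [← h2, coef_conjL, neg_neg]

lemma cst_conj (b : ℝ) {w v : WA d k} (hc : conjL w = v) : conjL (cst b + w) = cst b + v := by
  rw [map_add, conjL_cst, hc]

lemma F_eq (m : ℕ) (b : ℝ) {w v : WA d k} (hc : conjL w = v) :
    F m (cst b + w) = (cst b + w) ^ (m + 1) * (cst b + v) ^ m := by
  unfold F
  rw [cst_conj b hc]

lemma coef_F_conj (m : ℕ) (b : ℝ) {w v : WA d k} (hc : conjL w = v) (p : Lat d) :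
    coef ((cst b + w) ^ m * (cst b + v) ^ (m + 1)) p = conj (coef (F m (cst b + w)) (-p)) := by
  rw [F_eq m b hc, conj_coef_mul (cst_conj b hc), neg_neg]

/-- The gradient with exact powers `b ^ q` instead of `TT`. -/
noncomputable def TG (m : ℕ) (b : ℝ) (μ : ℝ) (y : {n // n ∈ B} × Bool → ℂ)
    (v : {n // n ∈ B} × Bool) : ℂ :=
  ∑ a ∈ range (m + 2), ∑ a' ∈ range (m + 2), (cf m a a' : ℂ) *
    (-(((2 * m + 2 - a - a' : ℕ) : ℂ) / 2 * (b : ℂ) ^ (2 * m + 2 - a - a') / b ^ 2) *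
        eval y (pderiv v (G (mv B) (cc μ) (cs μ) 1 1)) * eval y (G (mv B) (cc μ) (cs μ) a a') +
      (b : ℂ) ^ (2 * m + 2 - a - a') * eval y (pderiv v (G (mv B) (cc μ) (cs μ) a a')))

theorem TG_eq {m : ℕ} {b : ℝ} (hb : b ≠ 0) (hw : Ev y (fld (mv B) (cc μ)) = w)
    (hv : Ev y (fld (mv B) (cs μ)) = v) (hc : conjL w = v) (hw0 : coef w 0 = 0)
    (u : {n // n ∈ B} × Bool) :
    TG m b μ y u =
      cs μ u * (coef (F m (cst b + w)) (-sm (mv B) u) - g m (cst b + w) * coef w (-sm (mv B) u)) +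
      cc μ u * conj (coef (F m (cst b + w)) (sm (mv B) u) -
        g m (cst b + w) * coef w (sm (mv B) u)) := by
  have hb' : (b : ℂ) ≠ 0 := by exact_mod_cast hb
  have h1 : ∀ a a', eval y (pderiv u (G (mv B) (cc μ) (cs μ) a a')) =
      a * cc μ u * coef (w ^ (a - 1) * v ^ a') (-sm (mv B) u) +
      a' * cs μ u * coef (w ^ a * v ^ (a' - 1)) (-sm (mv B) u) := by
    intro a a'
    rw [eval_pderiv_G (k := k), hw, hv]
  have h2 : ∀ a a', eval y (G (mv B) (cc μ) (cs μ) a a') = coef (w ^ a * v ^ a') 0 := by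
    intro a a'
    rw [eval_G (k := k), hw, hv]
  unfold TG
  set D : ℂ := eval y (pderiv u (G (mv B) (cc μ) (cs μ) 1 1)) with hD
  have h3 : ∑ a ∈ range (m + 2), ∑ a' ∈ range (m + 2), (cf m a a' : ℂ) *
    (-(((2 * m + 2 - a - a' : ℕ) : ℂ) / 2 * (b : ℂ) ^ (2 * m + 2 - a - a') / b ^ 2) *
        D * eval y (G (mv B) (cc μ) (cs μ) a a') +
      (b : ℂ) ^ (2 * m + 2 - a - a') * eval y (pderiv u (G (mv B) (cc μ) (cs μ) a a'))) =
    -(D / (2 * b ^ 2)) * (∑ a ∈ range (m + 2), ∑ a' ∈ range (m + 2), (cf m a a' : ℂ) *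
      (((2 * m + 2 - a - a' : ℕ) : ℂ) * (b : ℂ) ^ (2 * m + 2 - a - a') * coef (w ^ a * v ^ a') 0)) +
    cc μ u * (∑ a ∈ range (m + 2), ∑ a' ∈ range (m + 2), (cf m a a' : ℂ) *
      ((b : ℂ) ^ (2 * m + 2 - a - a') * (a * coef (w ^ (a - 1) * v ^ a') (-sm (mv B) u)))) +
    cs μ u * (∑ a ∈ range (m + 2), ∑ a' ∈ range (m + 2), (cf m a a' : ℂ) *
      ((b : ℂ) ^ (2 * m + 2 - a - a') * (a' * coef (w ^ a * v ^ (a' - 1)) (-sm (mv B) u)))) := by
    rw [mul_sum, mul_sum, mul_sum, ← sum_add_distrib, ← sum_add_distrib]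
    refine sum_congr rfl fun a _ => ?_
    rw [mul_sum, mul_sum, mul_sum, ← sum_add_distrib, ← sum_add_distrib]
    refine sum_congr rfl fun a' _ => ?_
    rw [h1, h2]
    field_simp
    ring
  rw [h3, sumA, sumB, sumC, ← F_eq m b hc, coef_F_conj m b hc, coef_F_conj m b hc, neg_neg, neg_zero]
  have h4 : conj (coef (F m (cst b + w)) 0) + coef (F m (cst b + w)) 0 =
      2 * (b * (g m (cst b + w) : ℂ)) := by
    have h5 : coef (cst b + w) 0 = (b : ℂ) := by
      rw [coef_add, coef_cst, if_pos rfl, hw0, add_zero]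
    unfold g
    rw [h5]
    have h6 : ((coef (F m (cst b + w)) 0 / (b : ℂ)).re : ℂ) * b =
        ((coef (F m (cst b + w)) 0).re : ℂ) := by
      rw [Complex.div_ofReal_re]
      push_cast
      field_simp
    rw [mul_comm (b : ℂ), h6, add_comm, Complex.add_conj]
    push_cast
    ring
  rw [h4, hD, h1, map_sub, map_mul, Complex.conj_ofReal]
  have h7 : coef (w ^ (1 - 1) * v ^ 1) (-sm (mv B) u) = conj (coef w (sm (mv B) u)) := by
    rw [Nat.sub_self, pow_zero, one_mul, pow_one, ← hc, coef_conjL, neg_neg]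
  have h8 : coef (w ^ 1 * v ^ (1 - 1)) (-sm (mv B) u) = coef w (-sm (mv B) u) := by
    rw [Nat.sub_self, pow_zero, mul_one, pow_one]
  rw [h7, h8]
  field_simp
  push_cast
  ring

end Grad

end Vale.Agent.P139.BN.R7
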