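import Vale.Agent.P139.R2.H556.Ham3

/-!
# P139, row R7/R8: reality of the Hamiltonian and the field of a state
-/

set_option autoImplicit false

open MvPolynomial Finset
open scoped ComplexConjugate

namespace Vale.Agent.P139.BN.R7

open Vale.Agent.P139.A Vale.Agent.P139.A.WA
open AddMonoidAlgebra (single)

variable {d k : ℕ} {B : Finset (Lat d)} (hB : ∀ n ∈ B, -n ∈ B) (μ : ℝ)

lemma dual_dual {ι : Type} (v : ι × Bool) : dual (dual v) = v := by
  unfold dual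
  simp

/-- Conjugation as an equivalence. -/
def dualE (ι : Type) : ι × Bool ≃ ι × Bool := ⟨dual, dual, dual_dual, dual_dual⟩

lemma sm_dual {ι : Type} (mo : ι → Lat d) (v : ι × Bool) : sm mo (dual v) = -sm mo v := by
  obtain ⟨n, b⟩ := v
  cases b <;> simp [sm, dual]

lemma pt_dual {ι : Type} (z : ι → ℂ) (v : ι × Bool) : pt z (dual v) = conj (pt z v) := by
  obtain ⟨n, b⟩ := v
  cases b <;> simp [pt, dual]

lemma cs_dual (v : {n // n ∈ B} × Bool) : cs μ (dual v) = conj (cc μ v) := by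
  obtain ⟨n, b⟩ := v
  cases b <;> simp [cs, cc, dual]

lemma cc_dual (v : {n // n ∈ B} × Bool) : cc μ (dual v) = conj (cs μ v) := by
  obtain ⟨n, b⟩ := v
  cases b <;> simp [cs, cc, dual]

/-- The conjugate field. -/
theorem conjL_Ev (z : {n // n ∈ B} → ℂ) :
    conjL (Ev (pt z) (fld (mv B) (cc μ)) : WA d k) = Ev (pt z) (fld (mv B) (cs μ)) := by
  ext p
  rw [coef_conjL, coef_Ev, coef_Ev]
  unfold fld
  rw [coeff_sum_single, coeff_sum_single, map_sum, map_sum, map_sum]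
  refine Fintype.sum_equiv (dualE _) _ _ fun v => ?_
  have h1 : (sm (mv B) v = -p) ↔ (sm (mv B) (dualE _ v) = p) := by
    change _ ↔ sm (mv B) (dual v) = p
    rw [sm_dual, neg_eq_iff_eq_neg]
  by_cases h : sm (mv B) v = -p
  · rw [if_pos h, if_pos (h1.1 h), map_mul, map_mul, map_mul, eval_C, eval_C, eval_X, eval_X]
    change _ = cs μ (dual v) * pt z (dual v)
    rw [cs_dual, pt_dual]
  · rw [if_neg h, if_neg fun h' => h (h1.2 h')]
    simp

/-- The field of `z` has coefficients `α_n z_n + β_n \bar z_{-n}`. -/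
lemma coef_Ev_cc (z : {n // n ∈ B} → ℂ) (n : {n // n ∈ B}) :
    coef (Ev (pt z) (fld (mv B) (cc μ)) : WA d k) n.1 =
      bA μ n.1 * z n + bB μ n.1 * conj (z (ng hB n)) := by
  rw [coef_Ev, coeff_fld_cc hB]
  unfold Vn
  simp [pt]

lemma coef_Ev_cc_of_notMem (z : {n // n ∈ B} → ℂ) {p : Lat d} (hB : ∀ n ∈ B, -n ∈ B) (hp : p ∉ B) :
    coef (Ev (pt z) (fld (mv B) (cc μ)) : WA d k) p = 0 := by
  rw [coef_Ev]
  unfold fld
  rw [coeff_sum_single, map_sum]
  refine sum_eq_zero fun v _ => ?_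
  rw [if_neg, map_zero]
  intro h
  apply hp
  rw [← h]
  unfold sm
  split_ifs
  · exact v.1.2
  · exact hB _ v.1.2

theorem Ev_cc_eq (z : {n // n ∈ B} → ℂ) (w : WA d k) (hs : ∀ n, n ∉ B → coef w n = 0)
    (h : ∀ n : {n // n ∈ B}, coef w n.1 = bA μ n.1 * z n + bB μ n.1 * conj (z (ng hB n))) :
    Ev (pt z) (fld (mv B) (cc μ)) = w := by
  ext p
  by_cases hp : p ∈ B
  · rw [h ⟨p, hp⟩]
    exact coef_Ev_cc hB μ z ⟨p, hp⟩
  · rw [hs p hp, coef_Ev_cc_of_notMem μ z hB hp]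

section Real

variable {μ}

lemma conj_eval_pderiv_G (z : {n // n ∈ B} → ℂ) (a a' : ℕ) (u : {n // n ∈ B} × Bool) :
    conj (eval (pt z) (pderiv u (G (mv B) (cc μ) (cs μ) a a'))) =
      eval (pt z) (pderiv (dual u) (G (mv B) (cc μ) (cs μ) a' a)) := by
  have hc := conjL_Ev (k := 0) μ z
  rw [eval_pderiv_G (k := 0), eval_pderiv_G (k := 0), map_add, map_mul, map_mul, map_mul, map_mul,
    conj_coef_mul hc, conj_coef_mul hc, cs_dual, cc_dual, sm_dual]
  simp only [map_natCast]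
  ring

lemma conj_eval_G (z : {n // n ∈ B} → ℂ) (a a' : ℕ) :
    conj (eval (pt z) (G (mv B) (cc μ) (cs μ) a a')) =
      eval (pt z) (G (mv B) (cc μ) (cs μ) a' a) := by
  have hc := conjL_Ev (k := 0) μ z
  rw [eval_G (k := 0), eval_G (k := 0), conj_coef_mul hc, neg_zero]

lemma conj_TT {Lt : ℕ} {τ : ℕ → ℕ → ℝ} (q : ℕ) {s : ℂ} (hs : conj s = s) :
    conj (TT Lt τ q s) = TT Lt τ q s := by
  unfold TT
  rw [map_sum]
  refine sum_congr rfl fun l _ => ?_
  rw [map_mul, map_pow, hs, Complex.conj_ofReal]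

lemma conj_TD {Lt : ℕ} {τ : ℕ → ℕ → ℝ} (q : ℕ) {s : ℂ} (hs : conj s = s) :
    conj (TD Lt τ q s) = TD Lt τ q s := by
  unfold TD
  rw [map_sum]
  refine sum_congr rfl fun l _ => ?_
  rw [map_mul, map_mul, map_pow, hs, Complex.conj_ofReal, map_natCast]

lemma cf_comm (m a a' : ℕ) : cf m a a' = cf m a' a := by
  unfold cf
  ring

/-- The nonlinear part of the gradient. -/
noncomputable def NG (m Lt : ℕ) (τ : ℕ → ℕ → ℝ) (μ : ℝ) (y : {n // n ∈ B} × Bool → ℂ)
    (v : {n // n ∈ B} × Bool) : ℂ :=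
  ∑ a ∈ range (m + 2), ∑ a' ∈ range (m + 2), (cf m a a' : ℂ) *
    (TD Lt τ (2 * m + 2 - a - a') (eval y (G (mv B) (cc μ) (cs μ) 1 1)) *
        eval y (pderiv v (G (mv B) (cc μ) (cs μ) 1 1)) * eval y (G (mv B) (cc μ) (cs μ) a a') +
      TT Lt τ (2 * m + 2 - a - a') (eval y (G (mv B) (cc μ) (cs μ) 1 1)) *
        eval y (pderiv v (G (mv B) (cc μ) (cs μ) a a')))

lemma conj_NG {m Lt : ℕ} {τ : ℕ → ℕ → ℝ} (z : {n // n ∈ B} → ℂ) (v : {n // n ∈ B} × Bool) :
    conj (NG m Lt τ μ (pt z) v) = NG m Lt τ μ (pt z) (dual v) := by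
  have hS : conj (eval (pt z) (G (mv B) (cc μ) (cs μ) 1 1)) =
      eval (pt z) (G (mv B) (cc μ) (cs μ) 1 1) := conj_eval_G z 1 1
  unfold NG
  rw [map_sum, sum_comm]
  simp_rw [map_sum]
  refine sum_congr rfl fun a _ => sum_congr rfl fun a' _ => ?_
  rw [map_mul, Complex.conj_ofReal, map_add, map_mul, map_mul, map_mul, conj_TT _ hS,
    conj_TD _ hS, conj_eval_pderiv_G, conj_eval_pderiv_G, conj_eval_G, cf_comm m a' a,
    show 2 * m + 2 - a' - a = 2 * m + 2 - a - a' by omega]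

/-- Reality of the Hamiltonian. -/
theorem reality (h0 : (0 : Lat d) ∉ B) {m Lt : ℕ} {τ : ℕ → ℕ → ℝ} (z : {n // n ∈ B} → ℂ)
    (n : {n // n ∈ B}) :
    conj (eval (pt z) (pderiv (n, false) (∑ r ∈ range (2 * m + 2 * Lt + 1),
      Hh (mv B) (cc μ) (cs μ) m Lt τ (kin hB μ) r))) =
    eval (pt z) (pderiv (n, true) (∑ r ∈ range (2 * m + 2 * Lt + 1),
      Hh (mv B) (cc μ) (cs μ) m Lt τ (kin hB μ) r)) := by
  have hne : ∀ n : {n // n ∈ B}, mv B n ≠ 0 := fun n h => h0 (h ▸ n.2)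
  have hw : (Ev (pt z) (fld (mv B) (cc μ)) : WA d 0) = Ev (pt z) (fld (mv B) (cc μ)) := rfl
  have hc := conjL_Ev (k := 0) μ z
  have h1 := eval_pderiv_sum_Hh (mo := mv B) (c := cc μ) (cs := cs μ) (m := m) (Lt := Lt)
    (τ := τ) (kin := kin hB μ) hne (n, false) (pt z)
  have h2 := eval_pderiv_sum_Hh (mo := mv B) (c := cc μ) (cs := cs μ) (m := m) (Lt := Lt)
    (τ := τ) (kin := kin hB μ) hne (n, true) (pt z)
  have h3 := eval_pderiv_kin_false hB hw hc.symm n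
  have h4 := eval_pderiv_kin_true hB hw hc.symm n
  have h5 : conj (eval (pt z) (pderiv (n, false) (kin hB μ))) =
      eval (pt z) (pderiv (n, true) (kin hB μ)) := by
    rw [h3, h4]
    simp only [map_mul, map_add, Complex.conj_ofReal, coef_conjL, neg_neg, Complex.conj_conj]
  have h6 := conj_NG (m := m) (Lt := Lt) (τ := τ) (μ := μ) z (n, false)
  have h7 : dual ((n, false) : {n // n ∈ B} × Bool) = (n, true) := rfl
  rw [h7] at h6
  rw [h1, h2, map_add, h5]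
  exact congrArg _ h6

end Real

end Vale.Agent.P139.BN.R7
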