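import Vale.Agent.P139.R2.H556.Ham4
import Vale.Agent.P139.R2.H556.Defs2
import Vale.Agent.P139.R2.H36.Rem
import Vale.Agent.P139.R2.H240.Tay2
import Vale.Agent.P139.R2.H240.TayQ

/-!
# P139, rows R7/R8: the remainder of the truncated Hamiltonian
-/

set_option autoImplicit false

open MvPolynomial Finset
open scoped ComplexConjugate

namespace Vale.Agent.P139.BN.R7

open Vale.Agent.P139.A Vale.Agent.P139.A.WA

variable {d k : ℕ} {B : Finset (Lat d)} (hB : ∀ n ∈ B, -n ∈ B)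

/-- The Bogoliubov transform of a state. -/
noncomputable def zz (μ : ℝ) (w : WA d k) (n : {n // n ∈ B}) : ℂ :=
  (bA μ n.1 : ℂ) * coef w n.1 - (bB μ n.1 : ℂ) * conj (coef w (-n.1))

include hB in
lemma zz_inv {μ : ℝ} (hμ : 0 ≤ μ) (h0 : (0 : Lat d) ∉ B) (w : WA d k) (n : {n // n ∈ B}) :
    coef w n.1 = (bA μ n.1 : ℂ) * zz μ w n + (bB μ n.1 : ℂ) * conj (zz μ w (ng hB n)) := by
  have hn : n.1 ≠ 0 := fun h => h0 (h ▸ n.2)
  have h1 : ((bA μ n.1 : ℂ) ^ 2 - (bB μ n.1 : ℂ) ^ 2) = 1 := by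
    rw [← Complex.ofReal_pow, ← Complex.ofReal_pow, ← Complex.ofReal_sub, bA_sq_sub hμ hn,
      Complex.ofReal_one]
  have e1 : (ng hB n).1 = -n.1 := rfl
  unfold zz
  rw [e1, bA_neg, bB_neg, neg_neg, map_sub, map_mul, map_mul, Complex.conj_ofReal,
    Complex.conj_ofReal, Complex.conj_conj]
  linear_combination (-coef w n.1) * h1

/-- The remainder. -/
noncomputable def rho (m Lt : ℕ) (τ : ℕ → ℕ → ℝ) (μ b : ℝ) (z : {n // n ∈ B} → ℂ)
    (n : {n // n ∈ B}) : ℂ :=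
  Complex.I * (NG m Lt τ μ (pt z) (n, false) - TG m b μ (pt z) (n, false))

lemma NG_sub_TG {m Lt : ℕ} {τ : ℕ → ℕ → ℝ} {μ b : ℝ} {y : {n // n ∈ B} × Bool → ℂ} {s : ℂ}
    (hs : eval y (G (mv B) (cc μ) (cs μ) 1 1) = s) (v : {n // n ∈ B} × Bool) :
    NG m Lt τ μ y v - TG m b μ y v = ∑ a ∈ range (m + 2), ∑ a' ∈ range (m + 2), (cf m a a' : ℂ) *
      ((TT Lt τ (2 * m + 2 - a - a') s - (b : ℂ) ^ (2 * m + 2 - a - a')) *
          eval y (pderiv v (G (mv B) (cc μ) (cs μ) a a')) +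
        (TD Lt τ (2 * m + 2 - a - a') s +
          ((2 * m + 2 - a - a' : ℕ) : ℂ) / 2 * (b : ℂ) ^ (2 * m + 2 - a - a') / (b : ℂ) ^ 2) *
          eval y (pderiv v (G (mv B) (cc μ) (cs μ) 1 1)) *
          eval y (G (mv B) (cc μ) (cs μ) a a')) := by
  unfold NG TG
  rw [← sum_sub_distrib]
  refine sum_congr rfl fun a _ => ?_
  rw [← sum_sub_distrib]
  refine sum_congr rfl fun a' _ => ?_
  rw [hs]
  ring

/-- The evaluation of the mass. -/
lemma eval_G11 {μ : ℝ} {w : WA d k} {z : {n // n ∈ B} → ℂ}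
    (hw : Ev (pt z) (fld (mv B) (cc μ)) = w) :
    eval (pt z) (G (mv B) (cc μ) (cs μ) 1 1) = (H836.mass w : ℂ) := by
  have hc := conjL_Ev (k := k) μ z
  have h1 : conj (coef (w * conjL w) 0) = coef (w * conjL w) 0 := by
    have h2 := conj_coef_mul (rfl : conjL w = conjL w) 1 1 0
    rw [pow_one, pow_one, neg_zero] at h2
    exact h2
  rw [eval_G (k := k), ← hc, hw, pow_one, pow_one]
  unfold H836.mass
  exact (Complex.conj_eq_iff_re.1 h1).symm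

lemma norm_cc_le {μ : ℝ} (hμ : 0 ≤ μ) (h0 : (0 : Lat d) ∉ B) (v : {n // n ∈ B} × Bool) :
    ‖cc μ v‖ ≤ 1 + μ := by
  obtain ⟨n, b⟩ := v
  have hn : n.1 ≠ 0 := fun h => h0 (h ▸ n.2)
  cases b
  · change ‖(bB μ n.1 : ℂ)‖ ≤ _
    rw [Complex.norm_real, Real.norm_eq_abs]
    exact bB_le hμ hn
  · change ‖(bA μ n.1 : ℂ)‖ ≤ _
    rw [Complex.norm_real, Real.norm_eq_abs]
    exact bA_le hμ hn

lemma norm_cs_le {μ : ℝ} (hμ : 0 ≤ μ) (h0 : (0 : Lat d) ∉ B) (v : {n // n ∈ B} × Bool) :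
    ‖cs μ v‖ ≤ 1 + μ := by
  obtain ⟨n, b⟩ := v
  have hn : n.1 ≠ 0 := fun h => h0 (h ▸ n.2)
  cases b
  · change ‖(bA μ n.1 : ℂ)‖ ≤ _
    rw [Complex.norm_real, Real.norm_eq_abs]
    exact bA_le hμ hn
  · change ‖(bB μ n.1 : ℂ)‖ ≤ _
    rw [Complex.norm_real, Real.norm_eq_abs]
    exact bB_le hμ hn

/-- The facts about the mass. -/
lemma mass_facts {c e : ℝ} (hc : 0 < c) (he : 0 ≤ e) {w : WA d k} (hw : ‖w‖ ≤ c / 2)
    (hw0 : coef w 0 = 0) :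
    0 ≤ H836.mass w ∧ H836.mass w ≤ (c ^ 2 + e) / 4 ∧ 0 < H836.bz c e w ∧
      H836.bz c e w ^ 2 = c ^ 2 + e - H836.mass w := by
  have h1 : 0 ≤ H836.mass w := H836.mass_nonneg w
  have h2 : H836.mass w ≤ (c ^ 2 + e) / 4 := by
    have h3 := H836.mass_le w
    have h4 : ‖w‖ ^ 2 ≤ (c / 2) ^ 2 := pow_le_pow_left₀ (norm_nonneg _) hw 2
    nlinarith
  have h5 : H836.Pz w = w := by
    ext n
    rw [H836.coef_Pz]
    split_ifs with h
    · rw [h, hw0]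
    · rfl
  have h6 : 0 < c ^ 2 + e - H836.mass w := by
    have : 0 < c ^ 2 + e := by positivity
    linarith
  refine ⟨h1, h2, ?_, ?_⟩
  · unfold H836.bz
    rw [h5]
    exact Real.sqrt_pos.2 h6
  · unfold H836.bz
    rw [h5]
    exact Real.sq_sqrt h6.le

/-- The vector field of the equation is the Hamiltonian one up to the remainder. -/
theorem field_eq {m Lt : ℕ} {τ : ℕ → ℕ → ℝ} {μ b : ℝ} (hμ : 0 ≤ μ) (h0 : (0 : Lat d) ∉ B)
    (hb : b ≠ 0) {w : WA d k} (hs : ∀ n, n ∉ B → coef w n = 0) (n : {n // n ∈ B}) :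
    -Complex.I * (sqNorm n.1 * (bA μ n.1 * coef w n.1 + bB μ n.1 * conj (coef w (-n.1))) +
      bA μ n.1 * (coef (F m (cst b + w)) n.1 - g m (cst b + w) * coef w n.1) +
      bB μ n.1 * conj (coef (F m (cst b + w)) (-n.1) - g m (cst b + w) * coef w (-n.1))) =
    -Complex.I * eval (pt (zz μ w)) (pderiv (n, false) (∑ r ∈ range (2 * m + 2 * Lt + 1),
      Hh (mv B) (cc μ) (cs μ) m Lt τ (kin hB μ) r)) + rho m Lt τ μ b (zz μ w) n := by
  have hne : ∀ n : {n // n ∈ B}, mv B n ≠ 0 := fun n h => h0 (h ▸ n.2)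
  have hw : Ev (pt (zz μ w)) (fld (mv B) (cc μ)) = w :=
    Ev_cc_eq hB μ (zz μ w) w hs (zz_inv hB hμ h0 w)
  have hv : Ev (pt (zz μ w)) (fld (mv B) (cs μ)) = conjL w := by
    rw [← conjL_Ev (k := k) μ (zz μ w), hw]
  have h1 := eval_pderiv_sum_Hh (mo := mv B) (c := cc μ) (cs := cs μ) (m := m) (Lt := Lt)
    (τ := τ) (kin := kin hB μ) hne (n, false) (pt (zz μ w))
  have h3 := eval_pderiv_kin_false hB hw hv n
  have h4 := TG_eq (m := m) hb hw hv rfl (hs 0 h0) (n, false)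
  have h5 : -sm (mv B) (n, false) = n.1 := by simp [sm]
  have h6 : sm (mv B) (n, false) = -n.1 := by simp [sm]
  rw [h5, h6] at h4
  have h7 : cs μ (n, false) = (bA μ n.1 : ℂ) := rfl
  have h8 : cc μ (n, false) = (bB μ n.1 : ℂ) := rfl
  rw [h7, h8] at h4
  have h9 : eval (pt (zz μ w)) (pderiv (n, false) (∑ r ∈ range (2 * m + 2 * Lt + 1),
      Hh (mv B) (cc μ) (cs μ) m Lt τ (kin hB μ) r)) =
      eval (pt (zz μ w)) (pderiv (n, false) (kin hB μ)) +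
        NG m Lt τ μ (pt (zz μ w)) (n, false) := h1
  rw [h9, h3, coef_conjL]
  unfold rho
  rw [h4]
  ring

end Vale.Agent.P139.BN.R7
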